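import Vale.Agent.P180.R2.H589.O8.Od3

/-!
P180: automorphisms of the simple orthogonal groups in odd characteristic, all dimensions at least
seven.
-/

set_option linter.all false

namespace Vale.Agent.P180.R2.H589.O8

open Subgroup Module
open LinearMap (BilinForm)
open Vale.Agent.P180.R2.H589.Sch
open Vale.Agent.P180.R2.H589.Or (Sm Cl mkB)
open Vale.Agent.P180.R2.H589.Sp (SpG mem_SpG finite_gl SSim)
open Vale.Agent.P180.R2.H589.Oa hiding sim_of_aut inner_of_coprime_T derived_le_conj_T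

section Main

variable {K : Type} [Field K] [Finite K] {E : Type} [AddCommGroup E] [Module K E]
  [Module.Finite K E] {T : Type} [Group T]

/-- the model -/
theorem exists_model' (hodd : Odd (Nat.card K)) (hK : 3 < Nat.card K) (hd : 7 ≤ finrank K E)
    {B : E → E → K} (hadd : ∀ x y z, B (x + y) z = B x z + B y z)
    (hsm : ∀ (a : K) x y, B (a • x) y = a * B x y) (hsymm : ∀ x y, B y x = B x y)
    (hnd : ∀ x, (∀ y, B x y = 0) → x = 0) {X : Subgroup (SpecialLinearGroup K E)}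
    (hX : ∀ g ∈ X, ∀ x y, B (g x) (g y) = B x y)
    (h2X : ∀ g h : SpecialLinearGroup K E, g ∉ X → h ∉ X → (∀ x y, B (g x) (g y) = B x y) →
      (∀ x y, B (h x) (h y) = B x y) → g * h ∈ X)
    {π : X →* T} (hπ : Function.Surjective π)
    (hker : ∀ x : X, π x = 1 → x.1 ∈ center (SpecialLinearGroup K E))
    (hT : commutator T = ⊤) (hZ : center T = ⊥) :
    ∃ (p : ℕ) (_ : Fact p.Prime) (_ : CharP K p) (X' : Subgroup (E ≃ₗ[K] E)) (e : X ≃* X')
      (c : Ctx p (mkB hadd hsm hsymm) X') (h : PiC (π.comp e.symm.toMonoidHom)),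
      (∀ (x : X) v, (e x : E ≃ₗ[K] E) v = x.1 v) ∧
      (∀ z w : E ≃ₗ[K] E, z ∈ SpG (mkB hadd hsm hsymm) → w ∈ SpG (mkB hadd hsm hsymm) →
        LinearEquiv.det z = 1 → LinearEquiv.det w = 1 → z * w * z⁻¹ * w⁻¹ ∈ X') ∧
      ∃ A₀ : Subgroup (MulAut T), (∀ a : MulAut T, a ^ 6 ∈ A₀) ∧
        derivedSeries (MulAut T) 2 ≤ A₀ ∧ ∀ α ∈ A₀, ∃ (g : E ≃+ E) (σ : K ≃+* K) (κ : K),
        SSim (mkB hadd hsm hsymm) g σ κ ∧ IndY (π.comp e.symm.toMonoidHom) α g := by
  haveI : Finite E := Module.finite_of_finite K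
  haveI : Finite (E ≃ₗ[K] E) := finite_gl
  haveI : Fintype K := Fintype.ofFinite K
  obtain ⟨p, hpc⟩ := CharP.exists K
  obtain ⟨n, hp, hn⟩ := FiniteField.card K p
  haveI hpf : Fact p.Prime := ⟨hp⟩
  rw [← Nat.card_eq_fintype_card] at hn
  have hp2 : Odd p := by
    rcases hp.eq_two_or_odd' with h | h
    · exfalso
      rw [hn, h] at hodd
      have h3 : Even (2 ^ (n : ℕ)) := Nat.even_pow.mpr ⟨even_two, n.ne_zero⟩
      exact (Nat.not_even_iff_odd.mpr hodd) h3
    · exact h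
  have h2 : (2 : K) ≠ 0 := by
    intro h
    have h3 : p ∣ 2 := by
      rw [← CharP.cast_eq_zero_iff K p]
      exact_mod_cast h
    have h4 := (Nat.prime_dvd_prime_iff_eq hp Nat.prime_two).mp h3
    rw [h4] at hp2
    exact absurd hp2 (by decide)
  obtain ⟨B', hB'e⟩ : ∃ B' : BilinForm K E, B' = mkB hadd hsm hsymm := ⟨_, rfl⟩
  have hB' : ∀ x y, B' x y = B x y := fun x y => by rw [hB'e]; rfl
  have hS : Sm B' := ⟨fun x y => by rw [hB', hB', hsymm], fun x hx => hnd x fun y => by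
    rw [← hB', hx]⟩
  obtain ⟨ι, hι⟩ : ∃ ι : SpecialLinearGroup K E →* (E ≃ₗ[K] E),
      ∀ g, ι g = SpecialLinearGroup.toLinearEquiv g := ⟨_, fun g => rfl⟩
  have hιg : ∀ g : SpecialLinearGroup K E, ∀ x : E, ι g x = g x := by
    intro g x
    rw [hι]
    rfl
  have hinj : Function.Injective ι := by
    intro g g' h
    apply Subtype.ext
    apply LinearEquiv.ext
    intro x
    have h3 := congrArg (fun e : E ≃ₗ[K] E => e x) h
    simp only [hιg] at h3
    exact h3
  have hsurj : ∀ z : E ≃ₗ[K] E, LinearEquiv.det z = 1 → ∃ z', ι z' = z := fun z hz =>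
    ⟨⟨z, hz⟩, LinearEquiv.ext fun x => hιg _ x⟩
  let S : Subgroup (SpecialLinearGroup K E) :=
    { carrier := {g | ∀ x y, B (g x) (g y) = B x y}
      one_mem' := fun x y => rfl
      mul_mem' := by
        intro g g' hg hg' x y
        have h3 : ∀ x, (g * g') x = g (g' x) := fun x => rfl
        rw [h3, h3, hg, hg']
      inv_mem' := by
        intro g hg x y
        have h3 : ∀ x, g (g⁻¹ x) = x := fun x => by
          have h4 : (g * g⁻¹) x = x := by rw [mul_inv_cancel]; rfl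
          exact h4
        rw [← hg, h3, h3] }
  have hcl : ∀ g h, g ∉ X → h ∉ X → g ∈ S → h ∈ S → g * h ∈ X := fun g h h3 h4 h5 h6 =>
    h2X g h h3 h4 h5 h6
  have hCl : Cl B' (X.map ι) := by
    refine ⟨?_, ?_⟩
    · rintro _ ⟨g, hg, rfl⟩ x y
      rw [hιg, hιg, hB', hB', hX g hg]
    · intro g hg hd
      obtain ⟨g', rfl⟩ := hsurj g hd
      have h3 : g' ∈ S := by
        intro x y
        have h3 := mem_SpG.mp hg x y
        rwa [hιg, hιg, hB', hB'] at h3
      refine ⟨g' ^ 2, ?_, map_pow ι g' 2⟩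
      rw [pow_two]
      by_cases hgX : g' ∈ X
      · exact X.mul_mem hgX hgX
      · exact hcl g' g' hgX hgX h3 h3
  have c : Ctx p B' (X.map ι) := ⟨hS, h2, hp2, hCl⟩
  obtain ⟨e, he⟩ : ∃ e : X ≃* X.map ι, ∀ x, ((e x : X.map ι) : E ≃ₗ[K] E) = ι x :=
    ⟨X.equivMapOfInjective ι hinj, fun x => rfl⟩
  have hev : ∀ (x : X) v, (e x : E ≃ₗ[K] E) v = x.1 v := fun x v => by rw [he, hιg]
  have h : PiC (π.comp e.symm.toMonoidHom) := by
    refine ⟨hπ.comp e.symm.surjective, fun x => ?_⟩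
    obtain ⟨x, rfl⟩ := e.surjective x
    have h3 : (π.comp e.symm.toMonoidHom) (e x) = π x := congrArg π (e.symm_apply_apply x)
    rw [h3]
    constructor
    · intro hx
      obtain ⟨a, ha⟩ : ∃ a : K, ∀ v : E, x.1 v = a • v :=
        ⟨_, fun v => SpecialLinearGroup.mem_center_iff_spec (hker x hx) v⟩
      exact ⟨a, fun v => by rw [hev, ha v]⟩
    · rintro ⟨a, ha⟩
      have h4 : π x ∈ center T := by
        rw [mem_center_iff]
        intro t
        obtain ⟨y, rfl⟩ := hπ t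
        rw [← map_mul, ← map_mul]
        congr 1
        apply e.injective
        apply Subtype.ext
        apply LinearEquiv.ext
        intro v
        rw [map_mul, map_mul, Subgroup.coe_mul, Subgroup.coe_mul, LinearEquiv.mul_apply,
          LinearEquiv.mul_apply, ha, ha, map_smul]
      rw [hZ, mem_bot] at h4
      exact h4
  subst hB'e
  refine ⟨p, hpf, hpc, X.map ι, e, c, h, hev, ?_, ?_⟩
  · intro z w hz hw hdz hdw
    obtain ⟨z', rfl⟩ := hsurj z hdz
    obtain ⟨w', rfl⟩ := hsurj w hdw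
    refine ⟨z' * w' * z'⁻¹ * w'⁻¹, comm_mem (S := S) hcl (fun x y => ?_) (fun x y => ?_), ?_⟩
    · have h3 := mem_SpG.mp hz x y
      rwa [hιg, hιg, hB', hB'] at h3
    · have h3 := mem_SpG.mp hw x y
      rwa [hιg, hιg, hB', hB'] at h3
    · rw [map_mul, map_mul, map_mul, map_inv, map_inv]
  · obtain ⟨A₀, h6, hder, hA⟩ := exists_goodZ c h hK hd
    refine ⟨A₀, h6, hder, fun α hα => ?_⟩
    obtain ⟨g, σ, κ, hg, hi⟩ := hA α hα
    obtain ⟨v, hv0, -⟩ := exists_sing hS h2 (by omega : 3 ≤ finrank K E)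
    exact ⟨g, σ, κ, hg, indY_of_indZ c h hT ⟨v, hv0⟩ hg hi⟩

/-- **Semilinear similitudes**, automorphisms of order prime to six. -/
theorem sim_of_aut (hodd : Odd (Nat.card K)) (hK : 3 < Nat.card K)
    (hd : 7 ≤ finrank K E) {B : E → E → K} (hadd : ∀ x y z, B (x + y) z = B x z + B y z)
    (hsm : ∀ (a : K) x y, B (a • x) y = a * B x y) (hsymm : ∀ x y, B y x = B x y)
    (hnd : ∀ x, (∀ y, B x y = 0) → x = 0) {X : Subgroup (SpecialLinearGroup K E)}
    (hX : ∀ g ∈ X, ∀ x y, B (g x) (g y) = B x y)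
    (h2X : ∀ g h : SpecialLinearGroup K E, g ∉ X → h ∉ X → (∀ x y, B (g x) (g y) = B x y) →
      (∀ x y, B (h x) (h y) = B x y) → g * h ∈ X)
    {π : X →* T} (hπ : Function.Surjective π)
    (hker : ∀ x : X, π x = 1 → x.1 ∈ center (SpecialLinearGroup K E))
    (hT : commutator T = ⊤) (hZ : center T = ⊥) {α : MulAut T} {m : ℕ} (h6 : m.Coprime 6)
    (hα : α ^ m = 1) :
    ∃ (σ : K ≃+* K) (c : K) (g : E → E), c ≠ 0 ∧ Function.Bijective g ∧
      (∀ v w, g (v + w) = g v + g w) ∧ (∀ (a : K) v, g (a • v) = σ a • g v) ∧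
      (∀ v w, B (g v) (g w) = c * σ (B v w)) ∧
      ∀ x : X, ∃ y : X, (∀ v, g (x.1 v) = y.1 (g v)) ∧ α (π x) = π y := by
  obtain ⟨p, _, _, X', e, c, h, hev, -, A₀, h6', -, H⟩ := exists_model' hodd hK hd hadd hsm hsymm
    hnd hX h2X hπ hker hT hZ
  obtain ⟨g, σ, κ, hg, hi⟩ := H α (mem_of_pow h6' h6 hα)
  refine ⟨σ, κ, g, hg.ne, g.bijective, map_add g, hg.sl, hg.form, fun x => ?_⟩
  obtain ⟨y, hy, hy'⟩ := hi (e x)
  refine ⟨e.symm y, fun v => ?_, ?_⟩
  · have h3 := hy v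
    rw [hev] at h3
    rw [h3, ← hev, e.apply_symm_apply]
  · have h3 : (π.comp e.symm.toMonoidHom) (e x) = π x := congrArg π (e.symm_apply_apply x)
    rw [← h3]
    exact hy'

/-- **Automorphisms of order prime to six and to `|Aut K|` are inner.** -/
theorem inner_of_coprime_T (hodd : Odd (Nat.card K)) (hK : 3 < Nat.card K)
    (hd : 7 ≤ finrank K E) {B : E → E → K} (hadd : ∀ x y z, B (x + y) z = B x z + B y z)
    (hsm : ∀ (a : K) x y, B (a • x) y = a * B x y) (hsymm : ∀ x y, B y x = B x y)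
    (hnd : ∀ x, (∀ y, B x y = 0) → x = 0) {X : Subgroup (SpecialLinearGroup K E)}
    (hX : ∀ g ∈ X, ∀ x y, B (g x) (g y) = B x y)
    (h2X : ∀ g h : SpecialLinearGroup K E, g ∉ X → h ∉ X → (∀ x y, B (g x) (g y) = B x y) →
      (∀ x y, B (h x) (h y) = B x y) → g * h ∈ X)
    {π : X →* T} (hπ : Function.Surjective π)
    (hker : ∀ x : X, π x = 1 → x.1 ∈ center (SpecialLinearGroup K E))
    (hT : commutator T = ⊤) (hZ : center T = ⊥) {α : MulAut T} {m : ℕ} (h6 : m.Coprime 6)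
    (hc : m.Coprime (Nat.card (K ≃+* K))) (hα : α ^ m = 1) :
    α ∈ (MulAut.conj : T →* MulAut T).range := by
  obtain ⟨p, _, _, X', e, c, h, hev, -, A₀, h6', -, H⟩ := exists_model' hodd hK hd hadd hsm hsymm
    hnd hX h2X hπ hker hT hZ
  have hm : Odd m := by
    by_contra h3
    rw [Nat.not_odd_iff_even] at h3
    have h4 : 2 ∣ Nat.gcd m 6 := Nat.dvd_gcd h3.two_dvd (by decide)
    rw [Nat.Coprime.gcd_eq_one h6] at h4
    exact absurd h4 (by decide)
  exact inner_of_coprime_one c h (by omega) (H α (mem_of_pow h6' h6 hα)) hm hc hα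

/-- **The outer automorphism group is solvable.** -/
theorem derived_le_conj_T (hodd : Odd (Nat.card K)) (hK : 3 < Nat.card K)
    (hd : 7 ≤ finrank K E) {B : E → E → K} (hadd : ∀ x y z, B (x + y) z = B x z + B y z)
    (hsm : ∀ (a : K) x y, B (a • x) y = a * B x y) (hsymm : ∀ x y, B y x = B x y)
    (hnd : ∀ x, (∀ y, B x y = 0) → x = 0) {X : Subgroup (SpecialLinearGroup K E)}
    (hX : ∀ g ∈ X, ∀ x y, B (g x) (g y) = B x y)
    (h2X : ∀ g h : SpecialLinearGroup K E, g ∉ X → h ∉ X → (∀ x y, B (g x) (g y) = B x y) →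
      (∀ x y, B (h x) (h y) = B x y) → g * h ∈ X)
    {π : X →* T} (hπ : Function.Surjective π)
    (hker : ∀ x : X, π x = 1 → x.1 ∈ center (SpecialLinearGroup K E))
    (hT : commutator T = ⊤) (hZ : center T = ⊥) :
    derivedSeries (MulAut T) 5 ≤ (MulAut.conj : T →* MulAut T).range := by
  haveI : Finite E := Module.finite_of_finite K
  obtain ⟨p, _, _, X', e, c, h, hev, hcom, A₀, -, hA, H⟩ := exists_model' hodd hK hd hadd hsm
    hsymm hnd hX h2X hπ hker hT hZ
  exact derived_le_O' h hcom hA H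

end Main

end Vale.Agent.P180.R2.H589.O8
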