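import Mathlib.LinearAlgebra.BilinearForm.Orthogonal
import Mathlib.LinearAlgebra.FiniteDimensional.Lemmas
import Mathlib.Tactic.Module
import Mathlib.Tactic.LinearCombination

/-!
P180: the maximal totally singular subspaces of a quadratic space: at most two orbits under the
group generated by the Siegel transformations.
-/

set_option linter.all false

namespace Vale.Agent.P180.R2.H589.O8

open Module
open LinearMap (BilinForm)

variable {K V : Type*} [Field K] [AddCommGroup V] [Module K V]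

/-- quadratic forms with their polar form -/
structure QB (q : V → K) (B : BilinForm K V) : Prop where
  add : ∀ x y, q (x + y) = q x + q y + B x y
  sm : ∀ (a : K) x, q (a • x) = a * a * q x

/-- groups of isometries which contain the Siegel transformations -/
structure Sg (q : V → K) (B : BilinForm K V) (X : Subgroup (V ≃ₗ[K] V)) : Prop where
  qb : QB q B
  iso : ∀ g ∈ X, ∀ x, q (g x) = q x
  rx : ∀ u w, q u = 0 → q w = 0 → B u w = 0 → ∃ g ∈ X, ∀ x, g x = x + B x u • w - B x w • u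

/-- maximal totally singular subspaces -/
structure Mx (q : V → K) (B : BilinForm K V) (U : Submodule K V) : Prop where
  sg : ∀ x ∈ U, q x = 0
  mx : ∀ x, (∀ y ∈ U, B y x = 0) → x ∈ U

/-- neighbours -/
structure Nb (B : BilinForm K V) (U U₀ : Submodule K V) (a b : V) : Prop where
  ha : a ∈ U
  hb : b ∈ U₀
  ab : B a b = 1
  le : ∀ x ∈ U, B x b = 0 → x ∈ U₀
  ge : ∀ x ∈ U₀, B x a = 0 → x ∈ U

variable {q : V → K} {B : BilinForm K V} {X : Subgroup (V ≃ₗ[K] V)}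

theorem QB.symm (h : QB q B) (x y : V) : B y x = B x y := by
  have h1 := h.add x y
  rw [add_comm x y, h.add y x] at h1
  linear_combination h1

theorem QB.sub (h : QB q B) (x y : V) : q (x - y) = q x + q y - B x y := by
  have h1 : x - y = x + (-1 : K) • y := by rw [neg_one_smul, sub_eq_add_neg]
  rw [h1, h.add, h.sm, map_smul, smul_eq_mul]
  ring

theorem Mx.orth (h : QB q B) {U : Submodule K V} (hU : Mx q B U) {x y : V} (hx : x ∈ U)
    (hy : y ∈ U) : B x y = 0 := by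
  have h1 := h.add x y
  rw [hU.sg _ (U.add_mem hx hy), hU.sg x hx, hU.sg y hy] at h1
  linear_combination -h1

/-- inclusions are equalities -/
theorem Mx.le (h : QB q B) {U U' : Submodule K V} (hU : Mx q B U) (hU' : Mx q B U')
    (hle : U ≤ U') : U = U' := by
  refine le_antisymm hle fun x hx => hU.mx x fun y hy => ?_
  exact hU'.orth h (hle hy) hx

theorem Sg.isoB (s : Sg q B X) {g : V ≃ₗ[K] V} (hg : g ∈ X) (x y : V) : B (g x) (g y) = B x y := by
  have h1 := s.qb.add (g x) (g y)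
  rw [← map_add, s.iso g hg, s.iso g hg, s.iso g hg, s.qb.add x y] at h1
  linear_combination -h1

/-- images -/
theorem Mx.map (s : Sg q B X) {U : Submodule K V} (hU : Mx q B U) {g : V ≃ₗ[K] V} (hg : g ∈ X) :
    Mx q B (U.map (g : V →ₗ[K] V)) := by
  refine ⟨?_, fun x hx => ?_⟩
  · rintro _ ⟨x, hx, rfl⟩
    change q (g x) = 0
    rw [s.iso g hg, hU.sg x hx]
  · refine ⟨g.symm x, hU.mx _ fun y hy => ?_, g.apply_symm_apply x⟩
    have h1 := hx (g y) ⟨y, hy, rfl⟩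
    rw [← g.apply_symm_apply x, s.isoB hg] at h1
    exact h1

theorem mem_map' {U : Submodule K V} {g : V ≃ₗ[K] V} {x : V} :
    g x ∈ U.map (g : V →ₗ[K] V) ↔ x ∈ U := by
  constructor
  · rintro ⟨y, hy, hyx⟩
    rw [← g.injective hyx]
    exact hy
  · intro hx
    exact ⟨x, hx, rfl⟩

/-- the same singular hyperplane -/
theorem Nb.eq (h : QB q B) {U U' U₀ : Submodule K V} (hU : Mx q B U) (hU' : Mx q B U')
    (hU₀ : Mx q B U₀) {a b a' b' : V} (n : Nb B U U₀ a b) (n' : Nb B U' U₀ a' b')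
    (hh : ∀ x ∈ U₀, B x a = 0 → B x a' = 0) : U = U' := by
  have hba : B b a = 1 := by rw [h.symm a b, n.ab]
  have e1 : ∀ x ∈ U₀, B x (a' - B b a' • a) = 0 := by
    intro x hx
    have h1 := hh (x - B x a • b) (U₀.sub_mem hx (U₀.smul_mem _ n.hb)) (by
      rw [map_sub, map_smul, LinearMap.sub_apply, LinearMap.smul_apply, hba, smul_eq_mul, mul_one,
        sub_self])
    rw [map_sub, map_smul, LinearMap.sub_apply, LinearMap.smul_apply, smul_eq_mul] at h1
    rw [map_sub, map_smul, smul_eq_mul]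
    linear_combination h1
  have e2 := hU₀.mx _ e1
  have e3 : B b a' ≠ 0 := by
    intro h0
    rw [h0, zero_smul, sub_zero] at e2
    have h1 := hU₀.orth h e2 n'.hb
    rw [n'.ab] at h1
    exact one_ne_zero h1
  have e4 : B a a' = 0 := by
    have h1 := hU₀.sg _ e2
    rw [h.sub, h.sm, hU.sg a n.ha, hU'.sg a' n'.ha, map_smul, h.symm a a', smul_eq_mul] at h1
    have h3 : B b a' * B a a' = 0 := by linear_combination -h1
    exact (mul_eq_zero.mp h3).resolve_left e3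
  have e5 : a' ∈ U := by
    refine hU.mx _ fun u hu => ?_
    have h1 : u - B u b • a ∈ U := U.sub_mem hu (U.smul_mem _ n.ha)
    have h3 : u - B u b • a ∈ U₀ := n.le _ h1 (by
      rw [map_sub, map_smul, LinearMap.sub_apply, LinearMap.smul_apply, n.ab, smul_eq_mul, mul_one,
        sub_self])
    have h4 := hh _ h3 (hU.orth h h1 n.ha)
    rw [map_sub, map_smul, LinearMap.sub_apply, LinearMap.smul_apply, e4, smul_zero,
      sub_zero] at h4
    exact h4
  refine (Mx.le h hU' hU fun x hx => ?_).symm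
  have h1 : x - B x b' • a' ∈ U' := U'.sub_mem hx (U'.smul_mem _ n'.ha)
  have h3 : x - B x b' • a' ∈ U₀ := n'.le _ h1 (by
    rw [map_sub, map_smul, LinearMap.sub_apply, LinearMap.smul_apply, n'.ab, smul_eq_mul, mul_one,
      sub_self])
  have h4 : x - B x b' • a' ∈ U := n.ge _ h3 (by
    have h5 := hU₀.orth h h3 e2
    have h6 := hU'.orth h h1 n'.ha
    rw [map_sub, h6, map_smul, smul_eq_mul, zero_sub, neg_eq_zero] at h5
    exact (mul_eq_zero.mp h5).resolve_left e3)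
  have h5 := U.add_mem h4 (U.smul_mem (B x b') e5)
  rwa [sub_add_cancel] at h5

/-- neighbours are conjugate -/
theorem Nb.conj (s : Sg q B X) {U U' U₀ : Submodule K V} (hU : Mx q B U) (hU' : Mx q B U')
    (hU₀ : Mx q B U₀) {a b a' b' : V} (n : Nb B U U₀ a b) (n' : Nb B U' U₀ a' b') :
    ∃ g ∈ X, U.map (g : V →ₗ[K] V) = U' := by
  have h := s.qb
  by_cases hh : ∀ x ∈ U₀, B x a = 0 → B x a' = 0
  · refine ⟨1, X.one_mem, ?_⟩
    rw [← Nb.eq h hU hU' hU₀ n n' hh]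
    exact Submodule.map_id U
  push Not at hh
  obtain ⟨c, hc, hca, hca'⟩ := hh
  have hba : B b a = 1 := by rw [h.symm a b, n.ab]
  obtain ⟨c', hc'⟩ : ∃ c', c' = b - (B b a' * (B c a')⁻¹) • c := ⟨_, rfl⟩
  obtain ⟨u, hu⟩ : ∃ u, u = c' + (B c a')⁻¹ • c := ⟨_, rfl⟩
  obtain ⟨y, hy⟩ : ∃ y, y = a' - a + (B a a' * (B c a')⁻¹) • c := ⟨_, rfl⟩
  have hc'0 : c' ∈ U₀ := by rw [hc']; exact U₀.sub_mem n.hb (U₀.smul_mem _ hc)
  have hu0 : u ∈ U₀ := by rw [hu]; exact U₀.add_mem hc'0 (U₀.smul_mem _ hc)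
  have hua : B u a = 1 := by
    rw [hu, hc']
    simp only [map_add, map_sub, map_smul, LinearMap.add_apply, LinearMap.sub_apply,
      LinearMap.smul_apply, smul_eq_mul, hca, hba]
    ring
  have hua' : B u a' = 1 := by
    rw [hu, hc']
    simp only [map_add, map_sub, map_smul, LinearMap.add_apply, LinearMap.sub_apply,
      LinearMap.smul_apply, smul_eq_mul]
    field_simp
    ring
  have hxy : ∀ x ∈ U₀, B x y = B x a' - B x a := by
    intro x hx
    rw [hy, map_add, map_sub, map_smul, hU₀.orth h hx hc, smul_zero, add_zero]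
  have hqy : q y = 0 := by
    rw [hy, h.add, h.sub, h.sm, hU₀.sg c hc, hU.sg a n.ha, hU'.sg a' n'.ha, map_smul, map_sub,
      LinearMap.sub_apply, h.symm c a', h.symm c a, hca, h.symm a a', smul_eq_mul]
    field_simp
    ring
  have huy : B u y = 0 := by rw [hxy u hu0, hua, hua', sub_self]
  obtain ⟨g, hg, hgx⟩ := s.rx u y (hU₀.sg u hu0) hqy huy
  have hgU : ∀ x ∈ U₀, g x = x - B x y • u := by
    intro x hx
    rw [hgx, hU₀.orth h hx hu0, zero_smul, add_zero]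
  have hgm : ∀ x ∈ U₀, g x ∈ U₀ := by
    intro x hx
    rw [hgU x hx]
    exact U₀.sub_mem hx (U₀.smul_mem _ hu0)
  have hgs : ∀ x, g x ∈ U₀ → x ∈ U₀ := by
    intro x hx
    refine hU₀.mx x fun z hz => ?_
    rw [← s.isoB hg]
    exact hU₀.orth h (hgm z hz) hx
  have n'' : Nb B (U.map (g : V →ₗ[K] V)) U₀ (g a) (g b) := by
    refine ⟨⟨a, n.ha, rfl⟩, hgm b n.hb, by rw [s.isoB hg, n.ab], ?_, ?_⟩
    · rintro _ ⟨x, hx, rfl⟩ hxb
      change B (g x) (g b) = 0 at hxb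
      rw [s.isoB hg] at hxb
      exact hgm x (n.le x hx hxb)
    · intro x hx hxa
      obtain ⟨x, rfl⟩ := g.surjective x
      rw [s.isoB hg] at hxa
      exact ⟨x, n.ge x (hgs x hx) hxa, rfl⟩
  refine ⟨g, hg, Nb.eq h (hU.map s hg) hU' hU₀ n'' n' fun x hx hxa => ?_⟩
  obtain ⟨x, rfl⟩ := g.surjective x
  have hx0 := hgs x hx
  rw [s.isoB hg] at hxa
  rw [hgU x hx0, map_sub, map_smul, LinearMap.sub_apply, LinearMap.smul_apply, hua', hxy x hx0,
    hxa, smul_eq_mul]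
  ring

variable [Module.Finite K V]

/-- reduction -/
theorem exists_step (s : Sg q B X) {U₀ : Submodule K V} (hU₀ : Mx q B U₀) :
    ∀ (n : ℕ) (U : Submodule K V), Mx q B U → finrank K V - finrank K (U ⊓ U₀ : Submodule K V) ≤ n →
      ∃ g ∈ X, U.map (g : V →ₗ[K] V) = U₀ ∨ ∃ a b, Nb B (U.map (g : V →ₗ[K] V)) U₀ a b := by
  have h := s.qb
  intro n
  induction n with
  | zero =>
    intro U hU hn
    refine ⟨1, X.one_mem, Or.inl ?_⟩
    have h1 := Submodule.finrank_le (U ⊓ U₀ : Submodule K V)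
    have h3 : (U ⊓ U₀ : Submodule K V) = ⊤ := Submodule.eq_top_of_finrank_eq (by omega)
    have h4 : U = ⊤ := eq_top_iff.mpr (h3 ▸ inf_le_left)
    have h5 : U₀ = ⊤ := eq_top_iff.mpr (h3 ▸ inf_le_right)
    rw [h5, h4]
    exact Submodule.map_id ⊤
  | succ n ih =>
    intro U hU hn
    by_cases hle : U ≤ U₀
    · refine ⟨1, X.one_mem, Or.inl ?_⟩
      rw [← Mx.le h hU hU₀ hle]
      exact Submodule.map_id U
    obtain ⟨a, ha, ha0⟩ := Set.not_subset.mp hle
    obtain ⟨b, hb, hab⟩ : ∃ b ∈ U₀, B a b = 1 := by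
      by_contra hcon
      push Not at hcon
      apply ha0
      refine hU₀.mx a fun y hy => ?_
      by_contra h1
      refine hcon ((B a y)⁻¹ • y) (U₀.smul_mem _ hy) ?_
      rw [map_smul, smul_eq_mul, inv_mul_cancel₀]
      rwa [h.symm y a]
    by_cases hc : ∀ x ∈ U, B x b = 0 → x ∈ U₀
    · refine ⟨1, X.one_mem, Or.inr ⟨a, b, ?_⟩⟩
      have h1 : U.map (((1 : V ≃ₗ[K] V)) : V →ₗ[K] V) = U := Submodule.map_id U
      rw [h1]
      refine ⟨ha, hb, hab, hc, fun x hx hxa => hU.mx x fun u hu => ?_⟩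
      have h3 : u - B u b • a ∈ U₀ := hc _ (U.sub_mem hu (U.smul_mem _ ha)) (by
        rw [map_sub, map_smul, LinearMap.sub_apply, LinearMap.smul_apply, hab, smul_eq_mul,
          mul_one, sub_self])
      have h4 := hU₀.orth h h3 hx
      rw [map_sub, map_smul, LinearMap.sub_apply, LinearMap.smul_apply, h.symm x a, hxa,
        smul_zero, sub_zero] at h4
      exact h4
    push Not at hc
    obtain ⟨a', ha', hab', ha'0⟩ := hc
    obtain ⟨c, hc, hac⟩ : ∃ b ∈ U₀, B a' b = 1 := by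
      by_contra hcon
      push Not at hcon
      apply ha'0
      refine hU₀.mx a' fun y hy => ?_
      by_contra h1
      refine hcon ((B a' y)⁻¹ • y) (U₀.smul_mem _ hy) ?_
      rw [map_smul, smul_eq_mul, inv_mul_cancel₀]
      rwa [h.symm y a']
    obtain ⟨b', hb'⟩ : ∃ b', b' = c - B a c • b := ⟨_, rfl⟩
    have hb'0 : b' ∈ U₀ := by rw [hb']; exact U₀.sub_mem hc (U₀.smul_mem _ hb)
    have e1 : B a b' = 0 := by
      rw [hb', map_sub, map_smul, hab, smul_eq_mul, mul_one, sub_self]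
    have e2 : B a' b' = 1 := by
      rw [hb', map_sub, map_smul, hac, hab', smul_zero, sub_zero]
    obtain ⟨g₁, hg₁, hx₁⟩ := s.rx b b' (hU₀.sg b hb) (hU₀.sg b' hb'0) (hU₀.orth h hb hb'0)
    obtain ⟨g₂, hg₂, hx₂⟩ := s.rx a a' (hU.sg a ha) (hU.sg a' ha') (hU.orth h ha ha')
    have hg : g₂ * g₁ ∈ X := X.mul_mem hg₂ hg₁
    have f1 : (g₂ * g₁) a = b' := by
      rw [LinearEquiv.mul_apply, hx₁, hab, e1, one_smul, zero_smul, sub_zero, hx₂]
      simp only [map_add, LinearMap.add_apply, hU.orth h ha ha, hU.orth h ha ha', h.symm a b',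
        h.symm a' b', e1, e2, add_zero, zero_add, zero_smul, one_smul]
      abel
    have f2 : ∀ w ∈ U ⊓ U₀, (g₂ * g₁) w = w := by
      intro w hw
      rw [LinearEquiv.mul_apply, hx₁, hU₀.orth h hw.2 hb, hU₀.orth h hw.2 hb'0, zero_smul,
        zero_smul, add_zero, sub_zero, hx₂, hU.orth h hw.1 ha, hU.orth h hw.1 ha', zero_smul,
        zero_smul, add_zero, sub_zero]
    have hlt : (U ⊓ U₀ : Submodule K V) < U.map ((g₂ * g₁ : V ≃ₗ[K] V) : V →ₗ[K] V) ⊓ U₀ := by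
      refine lt_of_le_of_ne (fun w hw => ⟨⟨w, hw.1, f2 w hw⟩, hw.2⟩) fun h0 => ?_
      have h1 : b' ∈ U.map ((g₂ * g₁ : V ≃ₗ[K] V) : V →ₗ[K] V) ⊓ U₀ := ⟨⟨a, ha, f1⟩, hb'0⟩
      rw [← h0] at h1
      have h3 := hU.orth h ha' h1.1
      rw [e2] at h3
      exact one_ne_zero h3
    have h1 := Submodule.finrank_lt_finrank_of_lt hlt
    have h3 := Submodule.finrank_le
      (U.map ((g₂ * g₁ : V ≃ₗ[K] V) : V →ₗ[K] V) ⊓ U₀ : Submodule K V)
    obtain ⟨g, hgX, hgU⟩ := ih _ (hU.map s hg) (by omega)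
    refine ⟨g * (g₂ * g₁), X.mul_mem hgX hg, ?_⟩
    have h4 : U.map ((g * (g₂ * g₁) : V ≃ₗ[K] V) : V →ₗ[K] V) =
        (U.map ((g₂ * g₁ : V ≃ₗ[K] V) : V →ₗ[K] V)).map (g : V →ₗ[K] V) :=
      Submodule.map_comp _ _ _
    rw [h4]
    exact hgU

/-- **At most two orbits.** -/
theorem two_orbits (s : Sg q B X) {U₀ U U' : Submodule K V} (hU₀ : Mx q B U₀) (hU : Mx q B U)
    (hU' : Mx q B U') : (∃ g ∈ X, U.map (g : V →ₗ[K] V) = U₀) ∨
      (∃ g ∈ X, U'.map (g : V →ₗ[K] V) = U₀) ∨ ∃ g ∈ X, U.map (g : V →ₗ[K] V) = U' := by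
  obtain ⟨g, hg, h1 | ⟨a, b, h1⟩⟩ := exists_step s hU₀ _ U hU le_rfl
  · exact Or.inl ⟨g, hg, h1⟩
  obtain ⟨g', hg', h3 | ⟨a', b', h3⟩⟩ := exists_step s hU₀ _ U' hU' le_rfl
  · exact Or.inr (Or.inl ⟨g', hg', h3⟩)
  obtain ⟨k, hk, h4⟩ := h1.conj s (hU.map s hg) (hU'.map s hg') hU₀ h3
  refine Or.inr (Or.inr ⟨g'⁻¹ * (k * g), X.mul_mem (X.inv_mem hg') (X.mul_mem hk hg), ?_⟩)
  have h5 : U.map ((g'⁻¹ * (k * g) : V ≃ₗ[K] V) : V →ₗ[K] V) =
      ((U.map (g : V →ₗ[K] V)).map (k : V →ₗ[K] V)).map ((g'⁻¹ : V ≃ₗ[K] V) : V →ₗ[K] V) := by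
    rw [← Submodule.map_comp, ← Submodule.map_comp]
    rfl
  rw [h5, h4, ← Submodule.map_comp]
  have h6 : (((g'⁻¹ : V ≃ₗ[K] V) : V →ₗ[K] V).comp (g' : V →ₗ[K] V)) = LinearMap.id :=
    LinearMap.ext fun x => g'.symm_apply_apply x
  rw [h6, Submodule.map_id]

end Vale.Agent.P180.R2.H589.O8
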