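import Mathlib.GroupTheory.SpecificGroups.Alternating
import Mathlib.GroupTheory.Solvable
import Mathlib.GroupTheory.SpecificGroups.Cyclic
import Mathlib.GroupTheory.GroupAction.Quotient
import Mathlib.Tactic.IntervalCases

/-!
P180: subgroups of index at most three.
-/

set_option linter.all false

namespace Vale.Agent.P180.R2.H589.O8

open Subgroup

theorem perm_pow {n : ℕ} (hn : n ≤ 3) (a : Equiv.Perm (Fin n)) : a ^ 6 = 1 := by
  have h1 : a ^ Nat.factorial n = 1 := by
    have h3 := pow_card_eq_one (x := a)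
    rwa [Fintype.card_perm, Fintype.card_fin] at h3
  have h3 : Nat.factorial n ∣ 6 := Nat.factorial_dvd_factorial (n := 3) hn
  obtain ⟨k, hk⟩ := h3
  rw [hk, pow_mul, h1, one_pow]

theorem comm_of_card {G : Type*} [Group G] [Finite G] (h : Nat.card G = 1 ∨ (Nat.card G).Prime)
    (a b : G) : a * b = b * a := by
  rcases h with h | h
  · haveI := (Nat.card_eq_one_iff_unique.mp h).1
    exact Subsingleton.elim _ _
  · haveI : Fact (Nat.card G).Prime := ⟨h⟩
    haveI : IsCyclic G := isCyclic_of_prime_card (p := Nat.card G) rfl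
    obtain ⟨g, hg⟩ := IsCyclic.exists_generator (α := G)
    obtain ⟨i, rfl⟩ := hg a
    obtain ⟨j, rfl⟩ := hg b
    change g ^ i * g ^ j = g ^ j * g ^ i
    rw [← zpow_add, ← zpow_add, add_comm]

theorem perm_comm {n : ℕ} (hn : n ≤ 3) (a b : Equiv.Perm (Fin n))
    (ha : Equiv.Perm.sign a = 1) (hb : Equiv.Perm.sign b = 1) : a * b = b * a := by
  by_cases h2 : 2 ≤ n
  · haveI : Nontrivial (Fin n) := by
      haveI : NeZero n := ⟨by omega⟩
      exact Fin.nontrivial_iff_two_le.mpr h2
    have h1 := two_mul_nat_card_alternatingGroup (α := Fin n)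
    rw [Nat.card_eq_fintype_card (α := Equiv.Perm (Fin n)), Fintype.card_perm,
      Fintype.card_fin] at h1
    have h3 : Nat.card (alternatingGroup (Fin n)) = 1 ∨
        (Nat.card (alternatingGroup (Fin n))).Prime := by
      have h4 : n = 2 ∨ n = 3 := by omega
      rcases h4 with h4 | h4
      · left
        have h5 : Nat.factorial n = 2 := by rw [h4]; rfl
        omega
      · right
        have h5 : Nat.factorial n = 6 := by rw [h4]; rfl
        have h6 : Nat.card (alternatingGroup (Fin n)) = 3 := by omega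
        rw [h6]
        exact Nat.prime_three
    have h4 := comm_of_card h3 ⟨a, Equiv.Perm.mem_alternatingGroup.mpr ha⟩
      ⟨b, Equiv.Perm.mem_alternatingGroup.mpr hb⟩
    exact congrArg Subtype.val h4
  · haveI : Subsingleton (Fin n) := ⟨fun x y => Fin.ext (by omega)⟩
    exact Subsingleton.elim _ _

open scoped commutatorElement in
/-- **Subgroups of index at most three.** -/
theorem index_three {A : Type*} [Group A] (A₀ : Subgroup A) (f : A → Fin 3)
    (hf : ∀ a b, f a = f b → a⁻¹ * b ∈ A₀) : (∀ a, a ^ 6 ∈ A₀) ∧ derivedSeries A 2 ≤ A₀ := by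
  have hinj : Function.Injective (fun x : A ⧸ A₀ => f x.out) := by
    intro x y hxy
    have h1 := hf _ _ hxy
    rw [← QuotientGroup.out_eq' x, ← QuotientGroup.out_eq' y]
    exact QuotientGroup.eq.mpr h1
  haveI : Finite (A ⧸ A₀) := Finite.of_injective _ hinj
  have hcard : Nat.card (A ⧸ A₀) ≤ 3 := by
    have h1 := Nat.card_le_card_of_injective _ hinj
    rwa [Nat.card_fin] at h1
  let e : (A ⧸ A₀) ≃ Fin (Nat.card (A ⧸ A₀)) := Finite.equivFin _
  let ψ : A →* Equiv.Perm (Fin (Nat.card (A ⧸ A₀))) :=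
    e.permCongrHom.toMonoidHom.comp (MulAction.toPermHom A (A ⧸ A₀))
  have hker : ∀ a, ψ a = 1 → a ∈ A₀ := by
    intro a ha
    have h1 : MulAction.toPermHom A (A ⧸ A₀) a = 1 := by
      apply e.permCongrHom.injective
      rw [map_one]
      exact ha
    have h3 := congrArg (fun s : Equiv.Perm (A ⧸ A₀) => s ((1 : A) : A ⧸ A₀)) h1
    change ((a * 1 : A) : A ⧸ A₀) = ((1 : A) : A ⧸ A₀) at h3
    rw [mul_one] at h3
    have h4 := QuotientGroup.eq.mp h3.symm
    rwa [inv_one, one_mul] at h4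
  refine ⟨fun a => hker _ (by rw [map_pow, perm_pow hcard]), ?_⟩
  have d1 : derivedSeries A 1 ≤ (Equiv.Perm.sign.comp ψ).ker := by
    rw [derivedSeries_succ, derivedSeries_zero, commutator_le]
    intro a _ b _
    rw [MonoidHom.mem_ker, commutatorElement_def, map_mul, map_mul, map_mul, map_inv, map_inv,
      mul_comm ((Equiv.Perm.sign.comp ψ) a), mul_inv_cancel_right, mul_inv_cancel]
  rw [derivedSeries_succ, commutator_le]
  intro a ha b hb
  apply hker
  rw [commutatorElement_def, map_mul, map_mul, map_mul, map_inv, map_inv,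
    perm_comm hcard _ _ (d1 ha) (d1 hb), mul_inv_cancel_right, mul_inv_cancel]

/-- exponents -/
theorem mem_of_pow {A : Type*} [Group A] {A₀ : Subgroup A} (h : ∀ a : A, a ^ 6 ∈ A₀) {a : A}
    {m : ℕ} (hm : m.Coprime 6) (ha : a ^ m = 1) : a ∈ A₀ := by
  have h1 : a ^ (1 : ℤ) = a := zpow_one a
  have h3 : (1 : ℤ) = (m : ℤ) * m.gcdA 6 + (6 : ℤ) * m.gcdB 6 := by
    have h4 := Nat.gcd_eq_gcd_ab m 6
    rw [Nat.Coprime.gcd_eq_one hm] at h4
    exact_mod_cast h4
  rw [← h1, h3, zpow_add, zpow_mul, zpow_mul, zpow_natCast, ha, one_zpow, one_mul]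
  refine A₀.zpow_mem ?_ _
  have h5 : a ^ (6 : ℤ) = a ^ 6 := zpow_natCast a 6
  rw [h5]
  exact h a

section Classes

variable {T : Type*} [Group T]

/-- conjugate subgroups -/
def Cj (Q Q' : Subgroup T) : Prop := ∃ t : T, Q' = Q.map (MulAut.conj t).toMonoidHom

theorem Cj.refl (Q : Subgroup T) : Cj Q Q := by
  refine ⟨1, ?_⟩
  rw [map_one]
  exact (Subgroup.map_id Q).symm

theorem map_map_conj (Q : Subgroup T) (s t : T) :
    (Q.map (MulAut.conj t).toMonoidHom).map (MulAut.conj s).toMonoidHom =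
      Q.map (MulAut.conj (s * t)).toMonoidHom := by
  rw [Subgroup.map_map, map_mul]
  rfl

theorem Cj.symm {Q Q' : Subgroup T} (h : Cj Q Q') : Cj Q' Q := by
  obtain ⟨t, rfl⟩ := h
  refine ⟨t⁻¹, ?_⟩
  rw [map_map_conj, inv_mul_cancel, map_one]
  exact (Subgroup.map_id Q).symm

theorem Cj.trans {Q Q' Q'' : Subgroup T} (h : Cj Q Q') (h' : Cj Q' Q'') : Cj Q Q'' := by
  obtain ⟨t, rfl⟩ := h
  obtain ⟨s, rfl⟩ := h'
  exact ⟨s * t, map_map_conj Q s t⟩

theorem Cj.map {Q Q' : Subgroup T} (h : Cj Q Q') (β : MulAut T) :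
    Cj (Q.map β.toMonoidHom) (Q'.map β.toMonoidHom) := by
  obtain ⟨t, rfl⟩ := h
  refine ⟨β t, ?_⟩
  rw [Subgroup.map_map, Subgroup.map_map]
  congr 1
  ext x
  change β (t * x * t⁻¹) = β t * β x * (β t)⁻¹
  rw [map_mul, map_mul, map_inv]

theorem map_mul_aut (Q : Subgroup T) (α β : MulAut T) :
    (Q.map β.toMonoidHom).map α.toMonoidHom = Q.map (α * β).toMonoidHom := by
  rw [Subgroup.map_map]
  rfl

/-- the stabiliser of a class -/
def St (R : Subgroup T) : Subgroup (MulAut T) where
  carrier := {β | Cj R (R.map β.toMonoidHom)}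
  one_mem' := by
    have h1 : R.map (1 : MulAut T).toMonoidHom = R := Subgroup.map_id R
    change Cj R (R.map (1 : MulAut T).toMonoidHom)
    rw [h1]
    exact Cj.refl R
  mul_mem' := by
    intro α β hα hβ
    change Cj R (R.map (α * β).toMonoidHom)
    rw [← map_mul_aut]
    exact Cj.trans hα (Cj.map hβ α)
  inv_mem' := by
    intro α hα
    change Cj R (R.map α⁻¹.toMonoidHom)
    have h1 := (Cj.map hα α⁻¹).symm
    rw [map_mul_aut, inv_mul_cancel] at h1
    have h3 : R.map (1 : MulAut T).toMonoidHom = R := Subgroup.map_id R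
    rwa [h3] at h1

theorem mem_St {R : Subgroup T} {β : MulAut T} : β ∈ St R ↔ Cj R (R.map β.toMonoidHom) := Iff.rfl

/-- **Three classes.** -/
theorem three_classes (R : Subgroup T) (PR PU : Subgroup T → Prop)
    (h1 : ∀ β : MulAut T, PR (R.map β.toMonoidHom) ∨ PU (R.map β.toMonoidHom))
    (hR : ∀ Q, PR Q → Cj R Q)
    (hU : ∀ Q₀ Q Q', PU Q₀ → PU Q → PU Q' → Cj Q₀ Q ∨ Cj Q₀ Q' ∨ Cj Q Q') :
    (∀ a : MulAut T, a ^ 6 ∈ St R) ∧ derivedSeries (MulAut T) 2 ≤ St R := by
  classical
  have key : ∀ β : MulAut T, ¬ Cj R (R.map β.toMonoidHom) → PU (R.map β.toMonoidHom) := by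
    intro β hβ
    rcases h1 β with h3 | h3
    · exact absurd (hR _ h3) hβ
    · exact h3
  obtain ⟨β₀, hβ₀⟩ : ∃ β₀ : MulAut T, (∃ β : MulAut T, ¬ Cj R (R.map β.toMonoidHom)) →
      ¬ Cj R (R.map β₀.toMonoidHom) := by
    by_cases h3 : ∃ β : MulAut T, ¬ Cj R (R.map β.toMonoidHom)
    · obtain ⟨β, hβ⟩ := h3
      exact ⟨β, fun _ => hβ⟩
    · exact ⟨1, fun h4 => absurd h4 h3⟩
  have hst : ∀ a b : MulAut T, Cj (R.map a.toMonoidHom) (R.map b.toMonoidHom) →
      a⁻¹ * b ∈ St R := by
    intro a b hab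
    have h3 := Cj.map hab a⁻¹
    rw [map_mul_aut, map_mul_aut, inv_mul_cancel] at h3
    have h4 : R.map (1 : MulAut T).toMonoidHom = R := Subgroup.map_id R
    rwa [h4] at h3
  refine index_three (St R) (fun β => if Cj R (R.map β.toMonoidHom) then 0 else
    if Cj (R.map β₀.toMonoidHom) (R.map β.toMonoidHom) then 1 else 2) fun a b hab => hst a b ?_
  change (if Cj R (R.map a.toMonoidHom) then (0 : Fin 3) else
    if Cj (R.map β₀.toMonoidHom) (R.map a.toMonoidHom) then 1 else 2) =
    (if Cj R (R.map b.toMonoidHom) then (0 : Fin 3) else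
    if Cj (R.map β₀.toMonoidHom) (R.map b.toMonoidHom) then 1 else 2) at hab
  by_cases ha : Cj R (R.map a.toMonoidHom)
  · by_cases hb : Cj R (R.map b.toMonoidHom)
    · exact ha.symm.trans hb
    · exfalso
      rw [if_pos ha, if_neg hb] at hab
      by_cases hb' : Cj (R.map β₀.toMonoidHom) (R.map b.toMonoidHom)
      · rw [if_pos hb'] at hab
        exact absurd hab (by decide)
      · rw [if_neg hb'] at hab
        exact absurd hab (by decide)
  · by_cases hb : Cj R (R.map b.toMonoidHom)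
    · exfalso
      rw [if_neg ha, if_pos hb] at hab
      by_cases ha' : Cj (R.map β₀.toMonoidHom) (R.map a.toMonoidHom)
      · rw [if_pos ha'] at hab
        exact absurd hab (by decide)
      · rw [if_neg ha'] at hab
        exact absurd hab (by decide)
    · rw [if_neg ha, if_neg hb] at hab
      by_cases ha' : Cj (R.map β₀.toMonoidHom) (R.map a.toMonoidHom)
      · by_cases hb' : Cj (R.map β₀.toMonoidHom) (R.map b.toMonoidHom)
        · exact ha'.symm.trans hb'
        · rw [if_pos ha', if_neg hb'] at hab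
          exact absurd hab (by decide)
      · by_cases hb' : Cj (R.map β₀.toMonoidHom) (R.map b.toMonoidHom)
        · rw [if_neg ha', if_pos hb'] at hab
          exact absurd hab (by decide)
        · rcases hU _ _ _ (key β₀ (hβ₀ ⟨a, ha⟩)) (key a ha) (key b hb) with h3 | h3 | h3
          · exact absurd h3 ha'
          · exact absurd h3 hb'
          · exact h3

end Classes

end Vale.Agent.P180.R2.H589.O8
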