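import Vale.Agent.P180.R2.H589.Oe.Fin
import Vale.Agent.P180.R2.H589.O8.Orb
import Vale.Agent.P180.R2.H589.O8.Grp

/-!
P180: the groups `Ω(Q)` in characteristic two, all dimensions at least seven: the abelian radical
subgroups and the stabiliser of the class of the point radicals.
-/

set_option linter.all false

namespace Vale.Agent.P180.R2.H589.E8

open Subgroup Module
open LinearMap (BilinForm)
open Vale.Agent.P180.R2.H589.Sch
open Vale.Agent.P180.R2.H589.Oe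
open Vale.Agent.P180.R2.H589.Sp (finite_gl)
open Vale.Agent.P180.R2.H589.Oa (nondeg isRefl pel_of_nil Phi Phi.map mem_map_aut mem_norm_map VU
  mem_VU exists_smul_of_perp)
open Vale.Agent.P180.R2.H589.O8 (Mx two_orbits mem_map' Cj Cj.symm Cj.trans Cj.map St
  three_classes mem_of_pow)

section Inv

variable {K V : Type*} [Field K] [Finite K] [AddCommGroup V] [Module K V] [Module.Finite K V]
  [CharP K 2] {Q : V → K} {B : BilinForm K V} {X : Subgroup (V ≃ₗ[K] V)} (c : Ctx Q B X)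
  {P : Subgroup X}

include c

/-- **Invariant singular subspaces.** -/
theorem exists_inv' (hP : IsPGroup 2 P) (hne : P ≠ ⊥) :
    ∃ U : Submodule K V, (∃ u ∈ U, u ≠ 0) ∧ (∀ x ∈ U, Q x = 0) ∧ Inv P U ∧
      ∀ x ∈ U, x ∈ Fx P := by
  have hq := c.qd
  have hPN : ∀ y ∈ P, y ∈ normalizer (P : Set X) := fun y hy => le_normalizer hy
  have hFtop : Fx P ≠ ⊤ := by
    intro h0
    obtain ⟨t, ht1⟩ := P.ne_bot_iff_exists_ne_one.mp hne
    apply ht1
    apply Subtype.ext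
    apply ext_X
    intro x
    have h3 : x ∈ Fx P := by rw [h0]; exact Submodule.mem_top
    exact h3 t t.2
  have hGbot : B.orthogonal (Fx P) ≠ ⊥ := by
    intro h0
    apply hFtop
    rw [← LinearMap.BilinForm.orthogonal_orthogonal (nondeg hq.Sm) (isRefl hq.Sm) (Fx P), h0,
      LinearMap.BilinForm.orthogonal_bot]
  obtain ⟨x, hxG, hx0, hxF⟩ := exists_fixed c hP hGbot (fun y hy v hv =>
    (inv_Fx (P := P)).perp c y (hPN y hy) v hv)
  obtain ⟨U, hU⟩ : ∃ U : Submodule K V, U = Fx P ⊓ B.orthogonal (Fx P) := ⟨_, rfl⟩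
  have hxU : x ∈ U := by rw [hU]; exact ⟨hxF, hxG⟩
  have hUU : ∀ x ∈ U, ∀ y ∈ U, B x y = 0 := by
    intro x hx y hy
    rw [hU] at hx hy
    exact hy.2 x hx.1
  have hUi : Inv P U := by
    rw [hU]
    exact inv_Fx.inf (inv_Fx.perp c)
  by_cases hS : ∃ u ∈ Sg hq U hUU, u ≠ 0
  · refine ⟨Sg hq U hUU, hS, fun x hx => hx.2, inv_Sg c hUi, fun x hx => ?_⟩
    have h1 : x ∈ U := hx.1
    rw [hU] at h1
    exact h1.1
  push Not at hS
  have hQx : Q x ≠ 0 := fun h0 => hx0 (hS x ⟨hxU, h0⟩)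
  have hline : ∀ v ∈ U, ∃ k : K, v = k • x := by
    intro v hv
    obtain ⟨r, hr⟩ := exists_comb c hQx (hUU v hv x hxU)
    have h1 := hS _ ⟨U.add_mem hv (U.smul_mem r hxU), hr⟩
    exact ⟨-r, by rw [neg_smul]; exact eq_neg_of_add_eq_zero_left h1⟩
  have hNx : ∀ g : X, g ∈ normalizer (P : Set X) → (g : V ≃ₗ[K] V) x = x := by
    intro g hg
    obtain ⟨k, hk⟩ := hline _ (hUi g hg x hxU)
    have h1 := qf c g x
    rw [hk, hq.sm] at h1
    have h3 : k * k = 1 := mul_right_cancel₀ hQx (by rw [h1, one_mul])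
    have h4 : k = 1 := by
      have h5 : (k - 1) * (k - 1) = 0 := by linear_combination h3 + (1 - k) * hq.two
      exact sub_eq_zero.mp (mul_self_eq_zero.mp h5)
    rw [hk, h4, one_smul]
  -- the second space
  let F₁ : Submodule K V :=
    { carrier := {v | B x v = 0 ∧ ∀ y ∈ P, ∃ k : K, (y : V ≃ₗ[K] V) v - v = k • x}
      zero_mem' := ⟨map_zero _, fun y _ => ⟨0, by rw [map_zero, sub_zero, zero_smul]⟩⟩
      add_mem' := by
        rintro v w ⟨h1, h2⟩ ⟨h3, h4⟩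
        refine ⟨by rw [map_add, h1, h3, add_zero], fun y hy => ?_⟩
        obtain ⟨k, hk⟩ := h2 y hy
        obtain ⟨l, hl⟩ := h4 y hy
        refine ⟨k + l, ?_⟩
        rw [map_add, add_smul, ← hk, ← hl]
        abel
      smul_mem' := by
        rintro a v ⟨h1, h2⟩
        refine ⟨by rw [map_smul, h1, smul_zero], fun y hy => ?_⟩
        obtain ⟨k, hk⟩ := h2 y hy
        refine ⟨a * k, ?_⟩
        rw [map_smul, ← smul_sub, hk, smul_smul] }
  have hF₁i : Inv P F₁ := by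
    rintro g hg v ⟨h1, h2⟩
    refine ⟨?_, fun y hy => ?_⟩
    · have h3 := iso c g x v
      rw [hNx g hg] at h3
      rw [h3, h1]
    · obtain ⟨k, hk⟩ := h2 _ (norm_conj hg hy)
      refine ⟨k, ?_⟩
      rw [conj_apply', ← map_sub, hk, map_smul, hNx g hg]
  have hxF₁ : x ∈ F₁ := ⟨hq.alt x, fun y hy => ⟨0, by
    rw [hNx y (hPN y hy), sub_self, zero_smul]⟩⟩
  have hxG₁ : x ∈ B.orthogonal F₁ := by
    intro v hv
    rw [hq.symm x v]
    exact hv.1
  obtain ⟨U₁, hU₁⟩ : ∃ U : Submodule K V, U = F₁ ⊓ B.orthogonal F₁ := ⟨_, rfl⟩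
  have hUU₁ : ∀ x ∈ U₁, ∀ y ∈ U₁, B x y = 0 := by
    intro x hx y hy
    rw [hU₁] at hx hy
    exact hy.2 x hx.1
  have hUi₁ : Inv P U₁ := by
    rw [hU₁]
    exact hF₁i.inf (hF₁i.perp c)
  have hxU₁ : x ∈ U₁ := by rw [hU₁]; exact ⟨hxF₁, hxG₁⟩
  obtain ⟨v, hv, hvx⟩ : ∃ v ∈ U₁, ∀ k : K, v ≠ k • x := by
    by_cases hG₁ : ∃ v₀ ∈ B.orthogonal F₁, ∀ k : K, v₀ ≠ k • x
    · obtain ⟨v₀, hv₀, hv₀x⟩ := hG₁
      obtain ⟨v, hv, hvx, hvP⟩ := exists_fixed_mod c hP hxF (fun y hy v hv =>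
        hF₁i.perp c y (hPN y hy) v hv) hv₀ hv₀x
      refine ⟨v, ?_, hvx⟩
      rw [hU₁]
      exact ⟨⟨hv x hxF₁, hvP⟩, hv⟩
    · exfalso
      push Not at hG₁
      have h1 : ∀ v, B x v = 0 → v ∈ F₁ := by
        intro v hv
        rw [← LinearMap.BilinForm.orthogonal_orthogonal (nondeg hq.Sm) (isRefl hq.Sm) F₁]
        intro w hw
        obtain ⟨k, rfl⟩ := hG₁ w hw
        rw [map_smul, LinearMap.smul_apply, hv, smul_zero]
      apply hne
      rw [eq_bot_iff]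
      intro y hy
      rw [mem_bot]
      have h3 : ∀ v, B x v = 0 → (y : V ≃ₗ[K] V) v = v := by
        intro v hv
        obtain ⟨k, hk⟩ := (h1 v hv).2 y hy
        have h4 : (y : V ≃ₗ[K] V) v = v + k • x := by rw [← hk]; abel
        have h5 := qf c y v
        rw [h4, hq.add, hq.sm, map_smul, hq.symm x v, hv, smul_zero, add_zero] at h5
        have h6 : k * k * Q x = 0 := add_eq_left.mp h5
        have h7 : k = 0 := mul_self_eq_zero.mp ((mul_eq_zero.mp h6).resolve_right hQx)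
        rw [h4, h7, zero_smul, add_zero]
      refine eq_one_of_line c (x := x) fun v => ?_
      refine exists_smul_of_perp hq.Sm hx0 fun z hz => ?_
      have h4 : B x z = 0 := by rw [hq.symm z x, hz]
      rw [map_sub]
      nth_rewrite 1 [← h3 z h4]
      rw [iso c, sub_self]
  refine ⟨Sg hq U₁ hUU₁, ?_, fun x hx => hx.2, inv_Sg c hUi₁, fun v hv => ?_⟩
  swap
  · have h1 : v ∈ U₁ := hv.1
    rw [hU₁] at h1
    obtain ⟨h3, h4⟩ := h1.1
    intro y hy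
    obtain ⟨k, hk⟩ := h4 y hy
    have h4 : (y : V ≃ₗ[K] V) v = v + k • x := by rw [← hk]; abel
    have h5 := qf c y v
    rw [h4, hq.add, hq.sm, map_smul, hq.symm x v, h3, smul_zero, add_zero] at h5
    have h6 : k * k * Q x = 0 := add_eq_left.mp h5
    have h7 : k = 0 := mul_self_eq_zero.mp ((mul_eq_zero.mp h6).resolve_right hQx)
    rw [h4, h7, zero_smul, add_zero]
  obtain ⟨r, hr⟩ := exists_comb c hQx (hUU₁ v hv x hxU₁)
  refine ⟨v + r • x, ⟨U₁.add_mem hv (U₁.smul_mem r hxU₁), hr⟩, fun h0 => ?_⟩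
  apply hvx (-r)
  rw [neg_smul]
  exact eq_neg_of_add_eq_zero_left h0

/-- **Abelian radical subgroups.** -/
theorem RT_or_VU {P : Subgroup X}
    (hcen : ∀ u : V, u ≠ 0 → Q u = 0 → ∀ t, (∀ s ∈ RT Q B X u, t * s = s * t) → t ∈ RT Q B X u)
    (hP : Phi 2 (Nat.card K) P) : (∃ u : V, u ≠ 0 ∧ Q u = 0 ∧ P = RT Q B X u) ∨
      ∃ U : Submodule K V, Mx Q B U ∧ P = VU B X U := by
  haveI : Finite V := Module.finite_of_finite K
  haveI : Finite (V ≃ₗ[K] V) := finite_gl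
  have hB := c.qd.Sm
  obtain ⟨U, ⟨u₀, hu₀, hu₀0⟩, hUs, hUi, hUF⟩ := exists_inv' c hP.rad.1 hP.ne
  have hUU : ∀ x ∈ U, ∀ y ∈ U, B x y = 0 := fun x hx y hy =>
    orth_of_sing c.qd (hUs x hx) (hUs y hy) (hUs _ (U.add_mem hx hy))
  have hle : VU B X U ≤ P := by
    refine Bt.le_of_rad hP.rad (isPGroup_VU c) ?_
    intro t ht
    have h1 : ∀ {g : X}, g ∈ normalizer (P : Set X) → ∀ s ∈ VU B X U,
        g * s * g⁻¹ ∈ VU B X U := fun {g} hg s hs => VU_conj c (hUi.iff hg) hs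
    rw [mem_normalizer_iff]
    intro s
    constructor
    · exact h1 ht s
    · intro hs
      have h3 := h1 (g := t⁻¹) (Subgroup.inv_mem _ ht) _ hs
      have h4 : t⁻¹ * (t * s * t⁻¹) * t⁻¹⁻¹ = s := by group
      rwa [h4] at h3
  have hrP : ∀ u ∈ U, ∀ y ∈ B.orthogonal U, rX Q B X u y ∈ P := fun u hu y hy =>
    hle (rX_mem_VU c hUU hu (hUs u hu) hy)
  have hu₀s : Q u₀ = 0 := hUs u₀ hu₀
  by_cases hU1 : ∀ x ∈ U, ∃ k : K, x = k • u₀
  · -- a line
    refine Or.inl ⟨u₀, hu₀0, hu₀s, ?_⟩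
    have h1 : RT Q B X u₀ ≤ P := by
      intro t ht
      obtain ⟨y, hy, rfl⟩ := (mem_RT c hu₀s).mp ht
      refine hrP u₀ hu₀ y fun x hx => ?_
      obtain ⟨k, rfl⟩ := hU1 x hx
      rw [map_smul, LinearMap.smul_apply, hy, smul_zero]
    refine le_antisymm (fun t ht => ?_) h1
    exact hcen u₀ hu₀0 hu₀s t fun s hs => hP.ab t ht s (h1 hs)
  push Not at hU1
  obtain ⟨u₁, hu₁, hu₁k⟩ := hU1
  by_cases hUp : B.orthogonal U ≤ U
  · -- maximal totally singular subspaces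
    refine Or.inr ⟨U, ⟨hUs, fun x hx => hUp fun y hy => hx y hy⟩, ?_⟩
    refine le_antisymm (fun t ht => ?_) hle
    have hfix : ∀ x ∈ U, (t : V ≃ₗ[K] V) x = x := fun x hx => hUF x hx t ht
    refine ⟨hfix, fun x hx => ?_⟩
    rw [hfix x (hUp hx), sub_self]
    exact U.zero_mem
  · -- not abelian
    exfalso
    obtain ⟨y, hy, hyU⟩ : ∃ y ∈ B.orthogonal U, y ∉ U := Set.not_subset.mp hUp
    obtain ⟨y', hy', hyy⟩ : ∃ y' ∈ B.orthogonal U, B y' y ≠ 0 := by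
      by_contra hcon
      push Not at hcon
      apply hyU
      rw [← LinearMap.BilinForm.orthogonal_orthogonal (nondeg hB) (isRefl hB) U]
      exact hcon
    exact not_comm c hu₀0 hu₁k (hUs u₁ hu₁) hu₀s (hUU u₁ hu₁ u₀ hu₀) (hy u₁ hu₁)
      (hy u₀ hu₀) (hy' u₁ hu₁) (hy' u₀ hu₀) hyy
      (hP.ab _ (hrP u₁ hu₁ y hy) _ (hrP u₀ hu₀ y' hy'))

end Inv

section Orbits

variable {K V : Type*} [Field K] [AddCommGroup V] [Module K V]
  {Q : V → K} {B : BilinForm K V} {X : Subgroup (V ≃ₗ[K] V)} (c : Ctx Q B X)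

include c

theorem sg_of_ctx : O8.Sg Q B X := by
  refine ⟨⟨c.qd.add, c.qd.sm⟩, fun g hg x => ((c.mem g).mp hg).1 x, fun u w hu hw huw => ?_⟩
  refine ⟨rX Q B X u w, (rX Q B X u w).2, fun x => ?_⟩
  rw [rX_apply c hu huw, rl_apply, hw, zero_mul, add_zero]

/-- images of the radicals -/
theorem VU_map {U : Submodule K V} (g : X) : VU B X (U.map ((g : V ≃ₗ[K] V) : V →ₗ[K] V)) =
    (VU B X U).map (MulAut.conj g).toMonoidHom := by
  have key : ∀ (U U' : Submodule K V) (g : X), (∀ x, (g : V ≃ₗ[K] V) x ∈ U' ↔ x ∈ U) →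
      ∀ r ∈ VU B X U, g * r * g⁻¹ ∈ VU B X U' := by
    intro U U' g hg r hr
    have e1 : ∀ x, ((g * r * g⁻¹ : X) : V ≃ₗ[K] V) x =
        (g : V ≃ₗ[K] V) ((r : V ≃ₗ[K] V) ((g : V ≃ₗ[K] V).symm x)) := fun x => rfl
    have e2 : ∀ x, (g : V ≃ₗ[K] V) ((g : V ≃ₗ[K] V).symm x) = x :=
      (g : V ≃ₗ[K] V).apply_symm_apply
    refine ⟨fun x hx => ?_, fun x hx => ?_⟩
    · rw [e1, hr.1 _ ((hg _).mp (by rw [e2]; exact hx)), e2]
    · have h1 : (g : V ≃ₗ[K] V).symm x ∈ B.orthogonal U := by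
        intro u hu
        rw [← iso c g, e2]
        exact hx _ ((hg u).mpr hu)
      have h3 := (hg _).mpr (hr.2 _ h1)
      rw [map_sub, e2] at h3
      rw [e1]
      exact h3
  ext x
  constructor
  · intro hx
    refine ⟨g⁻¹ * x * g, ?_, ?_⟩
    · have h1 := key (U.map ((g : V ≃ₗ[K] V) : V →ₗ[K] V)) U g⁻¹ (fun y => ?_) x hx
      · rwa [inv_inv] at h1
      · constructor
        · intro h3
          exact ⟨_, h3, (g : V ≃ₗ[K] V).apply_symm_apply y⟩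
        · rintro ⟨z, hz, rfl⟩
          have h3 : ((g⁻¹ : X) : V ≃ₗ[K] V) ((g : V ≃ₗ[K] V) z) = z :=
            (g : V ≃ₗ[K] V).symm_apply_apply z
          change ((g⁻¹ : X) : V ≃ₗ[K] V) ((g : V ≃ₗ[K] V) z) ∈ U
          rw [h3]
          exact hz
    · change g * (g⁻¹ * x * g) * g⁻¹ = x
      group
  · rintro ⟨r, hr, rfl⟩
    exact key U _ g (fun x => mem_map') r hr

theorem Cj_VU {U U' : Submodule K V} {g : V ≃ₗ[K] V} (hg : g ∈ X)
    (hU : U.map (g : V →ₗ[K] V) = U') : Cj (VU B X U) (VU B X U') := by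
  refine ⟨⟨g, hg⟩, ?_⟩
  rw [← hU]
  exact VU_map c (U := U) ⟨g, hg⟩

theorem Cj_RT (g : X) {u : V} (hu : Q u = 0) {w : V}
    (hw : RT Q B X w = RT Q B X ((g : V ≃ₗ[K] V) u)) : Cj (RT Q B X u) (RT Q B X w) := by
  refine ⟨g, ?_⟩
  ext x
  rw [hw, mem_map_aut, ← RT_conj_iff' c g hu]
  rfl

end Orbits

end Vale.Agent.P180.R2.H589.E8
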