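import Vale.Agent.P180.R2.H589.O8.Ev2

/-!
P180: the groups `Ω(Q)` in characteristic two, all dimensions at least seven: semilinear
similitudes, the derived series of the automorphism group, automorphisms of order prime to six and
to `|Aut K|`.
-/

set_option linter.all false

namespace Vale.Agent.P180.R2.H589.E8

open Subgroup Module
open LinearMap (BilinForm)
open Vale.Agent.P180.R2.H589.Sch
open Vale.Agent.P180.R2.H589.Oe
open Vale.Agent.P180.R2.H589.Or (Sm hypo hypo_apply hypo_sm splitE splitE_iso splitE_apply BW_sm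
  pr_mem)
open Vale.Agent.P180.R2.H589.Sp (SpG mem_SpG WW BW BW_apply oo
  oo_ne finite_gl o' cj cj_apply cj_mem ringEquiv_comm SSim)
open Vale.Agent.P180.R2.H589.Oa (exists_mu det_sq comm_mem IndY IndL exists_linear indY_one
  exists_dual)
open Vale.Agent.P180.R2.H589.O8 (St mem_of_pow)

section Transport

variable {K V : Type*} [Field K] [Finite K] [AddCommGroup V] [Module K V] [Module.Finite K V]
  [CharP K 2] {Q : V → K} {B : BilinForm K V} {X : Subgroup (V ≃ₗ[K] V)} (c : Ctx Q B X)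

include c

/-- **The automorphisms which stabilise the class of the point radicals** are induced by
semilinear similitudes. -/
theorem exists_good (hK : 3 < Nat.card K) (hd : 7 ≤ finrank K V) :
    ∃ A₀ : Subgroup (MulAut X), (∀ a : MulAut X, a ^ 6 ∈ A₀) ∧
      derivedSeries (MulAut X) 2 ≤ A₀ ∧ ∀ α ∈ A₀,
      ∃ (g : V ≃+ V) (σ : K ≃+* K) (κ : K), QSim Q g σ κ ∧ IndQ α g := by
  haveI : Finite V := Module.finite_of_finite K
  have h := c.qd
  obtain ⟨o, ho, ho0⟩ := exists_sing h (by omega : 3 ≤ finrank K V)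
  obtain ⟨o', h1, ho'⟩ := h.exists_pair ho ho0
  have hBW := BW_qd h ho0 ho' h1
  have hfin := finrank_WW h h1
  obtain ⟨e, hee⟩ : ∃ e, e = splitE h.Sm (h.alt o) (h.alt o') h1 := ⟨_, rfl⟩
  have he : ∀ v, Q (e v) = hyq (fun x : WW B o o' => Q x) v := by
    intro v
    have h3 : e v = (v.1 • o + (v.2.1 : V)) + v.2.2 • o' := by
      rw [hee, splitE_apply]
    have h4 : B o (v.2.1 : V) = 0 := v.2.1.2.1
    have h5 : B o' (v.2.1 : V) = 0 := v.2.1.2.2
    rw [h3, h.add, h.add, h.sm, h.sm, ho0, ho', map_smul, map_smul, map_add, LinearMap.smul_apply,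
      LinearMap.add_apply, map_smul, LinearMap.smul_apply, h4, h1, h.symm o' (v.2.1 : V), h5,
      hyq_apply]
    simp only [smul_eq_mul]
    ring
  let X' := X.comap (cj e).toMonoidHom
  let eX : X' ≃* X :=
    { toFun := fun g => ⟨cj e g, g.2⟩
      invFun := fun g => ⟨(cj e).symm g, by
        change cj e ((cj e).symm (g : V ≃ₗ[K] V)) ∈ X
        rw [MulEquiv.apply_symm_apply]
        exact g.2⟩
      left_inv := fun g => Subtype.ext ((cj e).symm_apply_apply g)
      right_inv := fun g => Subtype.ext ((cj e).apply_symm_apply g)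
      map_mul' := fun g h => Subtype.ext (map_mul (cj e) (g : _ ≃ₗ[K] _) (h : _ ≃ₗ[K] _)) }
  have heX : ∀ (x : X') v, (eX x : V ≃ₗ[K] V) (e v) =
      e ((x : (K × WW B o o' × K) ≃ₗ[K] (K × WW B o o' × K)) v) := by
    intro x v
    change cj e (x : (K × WW B o o' × K) ≃ₗ[K] (K × WW B o o' × K)) (e v) = _
    rw [cj_apply, e.symm_apply_apply]
  have c' : Ctx (hyq (fun x : WW B o o' => Q x)) (hypo (BW B o o')) X' := by
    refine ⟨hyq_qd hBW, fun g => ?_⟩
    have h3 : g ∈ X' ↔ cj e g ∈ X := Iff.rfl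
    have h4 : ∀ v, cj e g (e v) = e (g v) := by
      intro v
      rw [cj_apply, e.symm_apply_apply]
    rw [h3, c.mem, ER_conj e g (cj e g) h4, mem_OG, mem_OG]
    refine and_congr_left fun _ => ?_
    constructor
    · intro h5 x
      rw [← he, ← he, ← h4, h5]
    · intro h5 x
      obtain ⟨x, rfl⟩ := e.surjective x
      rw [h4, he, he, h5]
  obtain ⟨h6, hder⟩ := three_classes_hyp hBW c' hK (by omega)
  -- the group
  let E : MulAut X ≃* MulAut X' := MulAut.congr eX.symm
  have hE : ∀ (α : MulAut X) (x : X'), eX (E α x) = α (eX x) := by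
    intro α x
    change eX (eX.symm (α (eX x))) = _
    rw [MulEquiv.apply_symm_apply]
  refine ⟨(St (RT (hyq (fun x : WW B o o' => Q x)) (hypo (BW B o o')) X' (oo K (WW B o o')))).comap
    E.toMonoidHom, fun a => ?_, ?_, fun α hα => ?_⟩
  · have h8 : E.toMonoidHom (a ^ 6) = (E a) ^ 6 := map_pow E a 6
    rw [Subgroup.mem_comap, h8]
    exact h6 _
  · have h7 := map_derivedSeries_le_derivedSeries E.toMonoidHom 2
    rw [Subgroup.map_le_iff_le_comap] at h7
    exact h7.trans (Subgroup.comap_mono hder)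
  obtain ⟨g, σ, κ, hg, hind⟩ := exists_qsim_hyp' hBW c' hK (by omega)
    (Pt_of_St hBW c' (by omega) (β := E α) hα)
  refine ⟨(e.symm.toAddEquiv.trans g).trans e.toAddEquiv, σ, κ, ⟨fun a v => ?_, hg.ne,
    fun v => ?_⟩, fun x v => ?_⟩
  · change e (g (e.symm (a • v))) = σ a • e (g (e.symm v))
    rw [map_smul, hg.sl, map_smul]
  · change Q (e (g (e.symm v))) = _
    rw [he, hg.form, ← he, e.apply_symm_apply]
  · obtain ⟨x, rfl⟩ := eX.surjective x
    obtain ⟨v, rfl⟩ := e.surjective v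
    change e (g (e.symm ((eX x : V ≃ₗ[K] V) (e v)))) =
      ((α (eX x) : X) : V ≃ₗ[K] V) (e (g (e.symm (e v))))
    have h3 : eX (E α x) = α (eX x) := hE α x
    rw [heX, e.symm_apply_apply, e.symm_apply_apply, hind, ← h3, heX]

end Transport

section Der

variable {K V : Type*} [Field K] [Finite K] [AddCommGroup V] [Module K V] [Finite V]
  {Q : V → K} {B : BilinForm K V} {X : Subgroup (V ≃ₗ[K] V)} {T : Type*} [Group T] {π : X →* T}

open scoped commutatorElement in
/-- **The outer automorphism group is solvable.** -/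
theorem derived_le' (h : Qd Q B) (hπ : Function.Surjective π)
    (h2G : ∀ z w : V ≃ₗ[K] V, z ∉ X → w ∉ X → z ∈ OG Q → w ∈ OG Q → z * w ∈ X)
    {A₀ : Subgroup (MulAut T)} (hA : derivedSeries (MulAut T) 2 ≤ A₀)
    (H : ∀ α ∈ A₀, ∃ (g : V ≃+ V) (σ : K ≃+* K) (κ : K), QSim Q g σ κ ∧ IndY π α g) :
    derivedSeries (MulAut T) 4 ≤ (MulAut.conj : T →* MulAut T).range := by
  haveI : Finite (V ≃ₗ[K] V) := finite_gl
  have d1 : derivedSeries (MulAut T) 3 ≤ IsoA Q π := by
    rw [derivedSeries_succ, commutator_le]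
    intro α hα β hβ
    obtain ⟨g, σ, κ, hg, h1⟩ := H α (hA hα)
    obtain ⟨g', τ, μ, hh, h2⟩ := H β (hA hβ)
    have h3 := (hg.mul (hh.mul (hg.inv.mul hh.inv)))
    have h4 := h1.mul (h2.mul (h1.inv.mul h2.inv))
    have h5 : (((τ.symm.trans σ.symm).trans τ).trans σ) = RingEquiv.refl K := by
      ext a
      change σ (τ (σ.symm (τ.symm a))) = a
      rw [ringEquiv_comm τ σ.symm, σ.apply_symm_apply, τ.apply_symm_apply]
    rw [h5] at h3
    have h6 : ⁅α, β⁆ = α * (β * (α⁻¹ * β⁻¹)) := by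
      rw [commutatorElement_def]
      group
    rw [h6]
    exact exists_isom h h3 h4
  rw [derivedSeries_succ, commutator_le]
  intro α hα β hβ
  obtain ⟨z, h1, h3⟩ := d1 hα
  obtain ⟨w, h4, h6⟩ := d1 hβ
  rw [commutatorElement_def]
  exact inner_of_mem hπ (((h3.mul h6).mul h3.inv).mul h6.inv)
    (comm_mem (S := OG Q) h2G h1 h4)

end Der

section Cop

variable {K V : Type*} [Field K] [Finite K] [AddCommGroup V] [Module K V] [Module.Finite K V]
  {Q : V → K} {B : BilinForm K V} {X : Subgroup (V ≃ₗ[K] V)} (c : Ctx Q B X)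
  {T : Type*} [Group T] {π : X →* T} (hinj : Function.Injective π)

include c hinj

/-- **Automorphisms of odd order prime to `|Aut K|` are inner.** -/
theorem inner_of_coprime_one (hπ : Function.Surjective π) (hd : 5 ≤ finrank K V)
    (h2G : ∀ z w : V ≃ₗ[K] V, z ∉ X → w ∉ X → z ∈ OG Q → w ∈ OG Q → z * w ∈ X)
    {α : MulAut T}
    (H : ∃ (g : V ≃+ V) (σ : K ≃+* K) (κ : K), QSim Q g σ κ ∧ IndY π α g) {m : ℕ} (hm : Odd m) (hc : m.Coprime (Nat.card (K ≃+* K))) (hα : α ^ m = 1) :
    α ∈ (MulAut.conj : T →* MulAut T).range := by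
  haveI : Finite V := Module.finite_of_finite K
  obtain ⟨g, σ, κ, hg, h1⟩ := H
  have hpow : ∀ n : ℕ, ∃ (g' : V ≃+ V) (κ' : K), QSim Q g' ((σ : RingAut K) ^ n) κ' ∧
      IndY π (α ^ n) g' := by
    intro n
    induction n with
    | zero =>
      refine ⟨AddEquiv.refl V, 1, ⟨fun c v => rfl, one_ne_zero, fun u => (one_mul _).symm⟩, ?_⟩
      rw [pow_zero]
      exact indY_one
    | succ n ih =>
      obtain ⟨g', κ', h2, h3⟩ := ih
      refine ⟨g.trans g', κ' * ((σ : RingAut K) ^ n) κ, ?_, ?_⟩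
      · have h4 := h2.mul hg
        rw [pow_succ]
        exact h4
      · rw [pow_succ]
        exact h3.mul h1
  obtain ⟨g', κ', h2, h3⟩ := hpow m
  rw [hα] at h3
  have h4 : ((σ : RingAut K) ^ m) = 1 := refl_of_indY c hinj hd h2 h3
  haveI : Finite (RingAut K) := Finite.of_injective (fun e : K ≃+* K => (e : K → K))
    (fun e e' h => RingEquiv.ext (congrFun h))
  have h5 : (σ : RingAut K) = 1 := by
    have h6 := orderOf_dvd_of_pow_eq_one h4
    have h7 : orderOf (σ : RingAut K) ∣ Nat.card (RingAut K) := orderOf_dvd_natCard _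
    have h8 := Nat.eq_one_of_dvd_coprimes hc h6 h7
    exact orderOf_eq_one_iff.mp h8
  have h6 : σ = RingEquiv.refl K := h5
  subst h6
  obtain ⟨z, hz, hzi⟩ := exists_isom c.qd hg h1
  have hz2 : z * z ∈ X := by
    by_cases hzX : z ∈ X
    · exact X.mul_mem hzX hzX
    · exact h2G z z hzX hzX hz hz
  have h7 : α * α ∈ (MulAut.conj : T →* MulAut T).range := inner_of_mem hπ (hzi.mul hzi) hz2
  obtain ⟨j, hj⟩ := hm
  have h8 : α = (α * α) ^ (j + 1) := by
    rw [← pow_two, ← pow_mul]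
    have h10 : 2 * (j + 1) = m + 1 := by rw [hj]; ring
    rw [h10, pow_succ, hα, one_mul]
  rw [h8]
  exact Subgroup.pow_mem _ h7 _

end Cop

end Vale.Agent.P180.R2.H589.E8
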