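import Vale.Agent.P180.R2.H589.Oa.Fin
import Vale.Agent.P180.R2.H589.O8.Orb
import Vale.Agent.P180.R2.H589.O8.Grp

/-!
P180: orthogonal groups in odd characteristic, all dimensions at least seven: the abelian radical
subgroups and the stabiliser of the class of the point radicals.
-/

set_option linter.all false

namespace Vale.Agent.P180.R2.H589.O8

open Subgroup Module
open LinearMap (BilinForm)
open Vale.Agent.P180.R2.H589.Sch
open Vale.Agent.P180.R2.H589.Or (Sm hypo hypo_apply hypo_sm pr_mem Cl)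
open Vale.Agent.P180.R2.H589.Sp (SpG mem_SpG oo oo_ne finite_gl o')
open Vale.Agent.P180.R2.H589.Oa

/-- the quadratic form -/
def qf {K V : Type*} [Field K] [AddCommGroup V] [Module K V] (B : BilinForm K V) (x : V) : K :=
  2⁻¹ * B x x

section Cls

variable {K V : Type*} [Field K] [Finite K] [AddCommGroup V] [Module K V] [Module.Finite K V]
  {p : ℕ} [hp : Fact p.Prime]
  [CharP K p] {B : BilinForm K V} {X : Subgroup (V ≃ₗ[K] V)} (c : Ctx p B X)
  {T : Type*} [Group T] {π : X →* T} (h : PiC π)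

include c h in
/-- **Abelian radical subgroups.** -/
theorem RT_or_VU {Q : Subgroup T}
    (hcen : ∀ u : V, u ≠ 0 → B u u = 0 → ∀ t, (∀ s ∈ RT B π u, t * s = s * t) → t ∈ RT B π u)
    (hQ : Phi p (Nat.card K) Q) : (∃ u : V, u ≠ 0 ∧ B u u = 0 ∧ Q = RT B π u) ∨
      ∃ U : Submodule K V, Mx (qf B) B U ∧ Q = (VU B X U).map π := by
  haveI : Finite V := Module.finite_of_finite K
  haveI : Finite (V ≃ₗ[K] V) := finite_gl
  haveI : Finite T := Finite.of_surjective π h.surj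
  have hB := c.sm
  obtain ⟨Y, hY⟩ : ∃ Y, Y = Lf h hQ.rad.1 := ⟨_, rfl⟩
  have hmY : ∀ g : X, g ∈ Y ↔ Pel p g ∧ π g ∈ Q := by
    intro g
    rw [hY]
    exact Iff.rfl
  have hYp : IsPGroup p Y := Bt.isPGroup_iff.mpr fun x hx => ((hmY x).mp hx).1
  have hYc : ∀ g : X, π g ∈ normalizer (Q : Set T) → ∀ y ∈ Y, g * y * g⁻¹ ∈ Y := by
    intro g hg y hy
    rw [hmY] at hy ⊢
    refine ⟨hy.1.conj g, ?_⟩
    rw [map_mul, map_mul, map_inv]
    exact (mem_normalizer_iff.mp hg _).mp hy.2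
  obtain ⟨F, hF⟩ : ∃ F : Submodule K V, F = Fx Y := ⟨_, rfl⟩
  have hFc : ∀ g : X, π g ∈ normalizer (Q : Set T) → ∀ x, (g : V ≃ₗ[K] V) x ∈ F ↔ x ∈ F := by
    have h1 : ∀ g : X, π g ∈ normalizer (Q : Set T) → ∀ x ∈ F, (g : V ≃ₗ[K] V) x ∈ F := by
      intro g hg x hx
      rw [hF] at hx ⊢
      refine Fx_conj (fun y hy => ?_) hx
      have h3 := hYc g⁻¹ (by rw [map_inv]; exact Subgroup.inv_mem _ hg) y hy
      rwa [inv_inv] at h3
    intro g hg x
    refine ⟨fun hx => ?_, h1 g hg x⟩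
    have h3 := h1 g⁻¹ (by rw [map_inv]; exact Subgroup.inv_mem _ hg) _ hx
    have h4 : ((g⁻¹ : X) : V ≃ₗ[K] V) ((g : V ≃ₗ[K] V) x) = x :=
      (g : V ≃ₗ[K] V).symm_apply_apply x
    rwa [h4] at h3
  -- `F ≠ ⊤`
  have hFtop : F ≠ ⊤ := by
    intro h0
    obtain ⟨t, ht1⟩ := Q.ne_bot_iff_exists_ne_one.mp hQ.ne
    obtain ⟨g, hg, hgt⟩ := exists_pel (p := p) (not_dvd_ker h)
      (Bt.isPGroup_iff.mp hQ.rad.1 t t.2) (h.surj t)
    have h1 : g = 1 := by
      apply ext_X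
      intro x
      have h3 : x ∈ F := by rw [h0]; exact Submodule.mem_top
      rw [hF] at h3
      exact h3 g ((hmY g).mpr ⟨hg, by rw [hgt]; exact t.2⟩)
    apply ht1
    apply Subtype.ext
    rw [← hgt, h1, map_one]
    rfl
  obtain ⟨G, hG⟩ : ∃ G : Submodule K V, G = B.orthogonal F := ⟨_, rfl⟩
  have hGbot : G ≠ ⊥ := by
    intro h0
    apply hFtop
    rw [← LinearMap.BilinForm.orthogonal_orthogonal (nondeg hB) (isRefl hB) F, ← hG, h0,
      LinearMap.BilinForm.orthogonal_bot]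
  have hYG : ∀ y ∈ Y, ∀ x ∈ G, (y : V ≃ₗ[K] V) x ∈ G := by
    intro y hy x hx
    rw [hG] at hx ⊢
    intro v hv
    have h1 : (y : V ≃ₗ[K] V) v = v := by
      rw [hF] at hv
      exact hv y hy
    rw [← h1, iso c]
    exact hx v hv
  obtain ⟨U, hU⟩ : ∃ U : Submodule K V, U = F ⊓ G := ⟨_, rfl⟩
  have hUne : ∃ u ∈ U, u ≠ 0 := by
    haveI : Finite G := inferInstance
    obtain ⟨x, hx0, hx⟩ := Bt.exists_fixed_gen hYp
      (fun (y : Y) (x : G) => (⟨((y : X) : V ≃ₗ[K] V) x, hYG y y.2 x x.2⟩ : G))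
      (fun x => rfl) (fun y z x => rfl)
      (by
        rw [Module.natCard_eq_pow_finrank (K := K)]
        refine dvd_pow Bt.dvd_card_K ?_
        intro h0
        exact hGbot (Submodule.finrank_eq_zero.mp h0)) (x₀ := (0 : G))
      (fun y => Subtype.ext (map_zero _))
    refine ⟨x, ?_, fun h0 => hx0 (Subtype.ext h0)⟩
    rw [hU, hF]
    exact ⟨fun y hy => congrArg Subtype.val (hx ⟨y, hy⟩), x.2⟩
  have hUU : ∀ x ∈ U, ∀ y ∈ U, B x y = 0 := by
    intro x hx y hy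
    rw [hU] at hx hy
    have h1 : y ∈ B.orthogonal F := by rw [← hG]; exact hy.2
    exact h1 x hx.1
  have hUc : ∀ g : X, π g ∈ normalizer (Q : Set T) → ∀ x, (g : V ≃ₗ[K] V) x ∈ U ↔ x ∈ U := by
    intro g hg x
    have h1 : ∀ g : X, π g ∈ normalizer (Q : Set T) → ∀ x ∈ G, (g : V ≃ₗ[K] V) x ∈ G := by
      intro g hg x hx
      rw [hG] at hx ⊢
      intro v hv
      have h3 : (g : V ≃ₗ[K] V) ((g : V ≃ₗ[K] V).symm v) = v :=
        (g : V ≃ₗ[K] V).apply_symm_apply v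
      rw [← h3, iso c]
      refine hx _ ((hFc g hg _).mp ?_)
      rw [h3]
      exact hv
    have h3 : (g : V ≃ₗ[K] V) x ∈ G ↔ x ∈ G := by
      refine ⟨fun hx => ?_, h1 g hg x⟩
      have h3 := h1 g⁻¹ (by rw [map_inv]; exact Subgroup.inv_mem _ hg) _ hx
      have h4 : ((g⁻¹ : X) : V ≃ₗ[K] V) ((g : V ≃ₗ[K] V) x) = x :=
        (g : V ≃ₗ[K] V).symm_apply_apply x
      rwa [h4] at h3
    rw [hU, Submodule.mem_inf, Submodule.mem_inf, hFc g hg x, h3]
  have hle : (VU B X U).map π ≤ Q := by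
    refine Bt.le_of_rad hQ.rad ((isPGroup_VU c).map π) ?_
    intro t ht
    obtain ⟨g, rfl⟩ := h.surj t
    have h1 : ∀ {g : X}, π g ∈ normalizer (Q : Set T) → ∀ s ∈ (VU B X U).map π,
        π g * s * (π g)⁻¹ ∈ (VU B X U).map π := by
      rintro g hg _ ⟨r, hr, rfl⟩
      exact ⟨g * r * g⁻¹, VU_conj c (hUc g hg) hr, by rw [map_mul, map_mul, map_inv]⟩
    rw [mem_normalizer_iff]
    intro s
    constructor
    · exact h1 ht s
    · intro hs
      have h3 := h1 (g := g⁻¹) (by rw [map_inv]; exact Subgroup.inv_mem _ ht) _ hs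
      have h4 : π g⁻¹ * (π g * s * (π g)⁻¹) * (π g⁻¹)⁻¹ = s := by rw [map_inv]; group
      rwa [h4] at h3
  have hrQ : ∀ u ∈ U, ∀ y ∈ B.orthogonal U, π (rX B X u y) ∈ Q := fun u hu y hy =>
    hle ⟨_, rX_mem_VU c hUU hu hy, rfl⟩
  obtain ⟨u₀, hu₀, hu₀0⟩ := hUne
  have hu₀s : B u₀ u₀ = 0 := hUU u₀ hu₀ u₀ hu₀
  by_cases hU1 : ∀ x ∈ U, ∃ k : K, x = k • u₀
  · -- a line
    refine Or.inl ⟨u₀, hu₀0, hu₀s, ?_⟩
    have h1 : RT B π u₀ ≤ Q := by
      intro t ht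
      obtain ⟨y, hy, rfl⟩ := (mem_RT c hu₀s).mp ht
      refine hrQ u₀ hu₀ y fun x hx => ?_
      obtain ⟨k, rfl⟩ := hU1 x hx
      rw [map_smul, LinearMap.smul_apply, hy, smul_zero]
    refine le_antisymm (fun t ht => ?_) h1
    exact hcen u₀ hu₀0 hu₀s t fun s hs => hQ.ab t ht s (h1 hs)
  push Not at hU1
  obtain ⟨u₁, hu₁, hu₁k⟩ := hU1
  by_cases hUp : B.orthogonal U ≤ U
  · -- maximal totally singular subspaces
    refine Or.inr ⟨U, ⟨fun x hx => ?_, fun x hx => hUp fun y hy => hx y hy⟩, ?_⟩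
    · rw [qf, hUU x hx x hx, mul_zero]
    refine le_antisymm (fun t ht => ?_) hle
    obtain ⟨g, hg, hgt⟩ := exists_pel (p := p) (not_dvd_ker h)
      (Bt.isPGroup_iff.mp hQ.rad.1 t ht) (h.surj t)
    have hgY : g ∈ Y := (hmY g).mpr ⟨hg, by rw [hgt]; exact ht⟩
    have hfix : ∀ x ∈ U, (g : V ≃ₗ[K] V) x = x := by
      intro x hx
      rw [hU, hF] at hx
      exact hx.1 g hgY
    refine ⟨g, ⟨hfix, fun x hx => ?_⟩, hgt⟩
    rw [hfix x (hUp hx), sub_self]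
    exact U.zero_mem
  · -- not abelian
    exfalso
    have h1 : ∃ y ∈ B.orthogonal U, B y y ≠ 0 := by
      by_contra hcon
      push Not at hcon
      apply hUp
      intro x hx
      rw [← LinearMap.BilinForm.orthogonal_orthogonal (nondeg hB) (isRefl hB) U]
      intro y hy
      exact orth_of_sing hB c.two (hcon y hy) (hcon x hx)
        (hcon _ (Submodule.add_mem _ hy hx))
    obtain ⟨y, hy, hyy⟩ := h1
    exact not_comm hu₀0 hu₁k (hUU u₁ hu₁ u₁ hu₁) hu₀s (hUU u₁ hu₁ u₀ hu₀) (hy u₁ hu₁)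
      (hy u₀ hu₀) hyy c (hQ.ab _ (hrQ u₁ hu₁ y hy) _ (hrQ u₀ hu₀ y hy)) h

end Cls

section Orbits

variable {K V : Type*} [Field K] [AddCommGroup V] [Module K V]
  {p : ℕ} [hp : Fact p.Prime]
  [CharP K p] {B : BilinForm K V} {X : Subgroup (V ≃ₗ[K] V)} (c : Ctx p B X)
  {T : Type*} [Group T] {π : X →* T}

include c hp

theorem sg_of_ctx : Sg (qf B) B X := by
  have h2 := c.two
  have hs : ∀ u, qf B u = 0 → B u u = 0 := by
    intro u hu
    exact (mul_eq_zero.mp hu).resolve_left (inv_ne_zero h2)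
  refine ⟨⟨fun x y => ?_, fun a x => ?_⟩, fun g hg x => ?_, fun u w hu hw huw => ?_⟩
  · rw [qf, qf, qf]
    simp only [map_add, LinearMap.add_apply, c.sm.symm x y]
    field_simp
    ring
  · rw [qf, qf]
    simp only [map_smul, LinearMap.smul_apply, smul_eq_mul]
    ring
  · rw [qf, qf, c.cl.1 hg]
  · refine ⟨rX B X u w, (rX B X u w).2, fun x => ?_⟩
    rw [rX_apply c (hs u hu) huw, rl_apply, hs w hw, mul_zero, zero_mul, add_zero]

/-- images of the radicals -/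
theorem VU_map {U : Submodule K V} (g : X) : VU B X (U.map ((g : V ≃ₗ[K] V) : V →ₗ[K] V)) =
    (VU B X U).map (MulAut.conj g).toMonoidHom := by
  have key : ∀ (U U' : Submodule K V) (g : X), (∀ x, (g : V ≃ₗ[K] V) x ∈ U' ↔ x ∈ U) →
      ∀ r ∈ VU B X U, g * r * g⁻¹ ∈ VU B X U' := by
    intro U U' g hg r hr
    have e1 : ∀ x, ((g * r * g⁻¹ : X) : V ≃ₗ[K] V) x =
        (g : V ≃ₗ[K] V) ((r : V ≃ₗ[K] V) ((g : V ≃ₗ[K] V).symm x)) := fun x => rfl
    have e2 : ∀ x, (g : V ≃ₗ[K] V) ((g : V ≃ₗ[K] V).symm x) = x :=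
      (g : V ≃ₗ[K] V).apply_symm_apply
    refine ⟨fun x hx => ?_, fun x hx => ?_⟩
    · rw [e1, hr.1 _ ((hg _).mp (by rw [e2]; exact hx)), e2]
    · have h1 : (g : V ≃ₗ[K] V).symm x ∈ B.orthogonal U := by
        intro u hu
        rw [← iso c g, e2]
        exact hx _ ((hg u).mpr hu)
      have h3 := (hg _).mpr (hr.2 _ h1)
      rw [map_sub, e2] at h3
      rw [e1]
      exact h3
  ext x
  constructor
  · intro hx
    refine ⟨g⁻¹ * x * g, ?_, ?_⟩
    · have h1 := key (U.map ((g : V ≃ₗ[K] V) : V →ₗ[K] V)) U g⁻¹ (fun y => ?_) x hx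
      · rwa [inv_inv] at h1
      · constructor
        · intro h3
          exact ⟨_, h3, (g : V ≃ₗ[K] V).apply_symm_apply y⟩
        · rintro ⟨z, hz, rfl⟩
          have h3 : ((g⁻¹ : X) : V ≃ₗ[K] V) ((g : V ≃ₗ[K] V) z) = z :=
            (g : V ≃ₗ[K] V).symm_apply_apply z
          change ((g⁻¹ : X) : V ≃ₗ[K] V) ((g : V ≃ₗ[K] V) z) ∈ U
          rw [h3]
          exact hz
    · change g * (g⁻¹ * x * g) * g⁻¹ = x
      group
  · rintro ⟨r, hr, rfl⟩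
    exact key U _ g (fun x => mem_map') r hr

theorem Cj_VU {U U' : Submodule K V} {g : V ≃ₗ[K] V} (hg : g ∈ X)
    (hU : U.map (g : V →ₗ[K] V) = U') : Cj ((VU B X U).map π) ((VU B X U').map π) := by
  refine ⟨π ⟨g, hg⟩, ?_⟩
  rw [← hU]
  have h1 := VU_map c (U := U) ⟨g, hg⟩
  rw [show U.map (g : V →ₗ[K] V) = U.map (((⟨g, hg⟩ : X) : V ≃ₗ[K] V) : V →ₗ[K] V) from rfl, h1,
    Subgroup.map_map, Subgroup.map_map]
  congr 1
  ext x
  change π (⟨g, hg⟩ * x * (⟨g, hg⟩ : X)⁻¹) = π ⟨g, hg⟩ * π x * (π ⟨g, hg⟩)⁻¹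
  rw [map_mul, map_mul, map_inv]

theorem Cj_RT (g : X) {u : V} (hu : B u u = 0) {w : V}
    (hw : RT B π w = RT B π ((g : V ≃ₗ[K] V) u)) : Cj (RT B π u) (RT B π w) := by
  refine ⟨π g, ?_⟩
  ext x
  rw [hw, mem_map_aut, ← RT_conj_iff' c g hu]
  rfl

end Orbits

end Vale.Agent.P180.R2.H589.O8
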