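import Vale.Agent.P180.R2.H589.O8.Od2

/-!
P180: orthogonal groups in odd characteristic, all dimensions at least seven: semilinear
similitudes, the derived series of the automorphism group, automorphisms of order prime to six and
to `|Aut K|`.
-/

set_option linter.all false

namespace Vale.Agent.P180.R2.H589.O8

open Subgroup Module
open LinearMap (BilinForm)
open Vale.Agent.P180.R2.H589.Sch
open Vale.Agent.P180.R2.H589.Or (Sm hypo hypo_apply hypo_sm splitE splitE_iso splitE_apply BW_sm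
  pr_mem Cl mkB)
open Vale.Agent.P180.R2.H589.Sp (SpG mem_SpG WW BW BW_apply lv lv_apply lv_mul lv_one lv_inv oo
  oo_ne finite_gl SSim o' cj cj_apply cj_mem ringEquiv_comm)
open Vale.Agent.P180.R2.H589.Oa

section Transport

variable {K V : Type*} [Field K] [Finite K] [AddCommGroup V] [Module K V] [Module.Finite K V]
  {p : ℕ} [hp : Fact p.Prime]
  [CharP K p] {B : BilinForm K V} {X : Subgroup (V ≃ₗ[K] V)} (c : Ctx p B X)
  {T : Type*} [Group T] {π : X →* T} (h : PiC π)

include hp c h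

/-- **The automorphisms which stabilise the class of the point radicals** are induced by
semilinear similitudes, up to scalars. -/
theorem exists_goodZ (hK : 3 < Nat.card K) (hd : 7 ≤ finrank K V) :
    ∃ A₀ : Subgroup (MulAut T), (∀ a : MulAut T, a ^ 6 ∈ A₀) ∧
      derivedSeries (MulAut T) 2 ≤ A₀ ∧ ∀ α ∈ A₀,
      ∃ (g : V ≃+ V) (σ : K ≃+* K) (κ : K), SSim B g σ κ ∧ IndZ π α g := by
  haveI : Finite V := Module.finite_of_finite K
  have hB := c.sm
  obtain ⟨o, ho, ho0⟩ := exists_sing hB c.two (by omega : 3 ≤ finrank K V)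
  obtain ⟨o', h1, ho'⟩ := hB.exists_pair c.two ho ho0
  have he := splitE_iso hB ho0 ho' h1
  have hBW := BW_sm hB ho0 ho' h1
  obtain ⟨e, hee⟩ : ∃ e, e = splitE hB ho0 ho' h1 := ⟨_, rfl⟩
  rw [← hee] at he
  have hfin : finrank K V = finrank K (WW B o o') + 2 := by
    have h5 := e.finrank_eq
    rw [Module.finrank_prod, Module.finrank_prod, Module.finrank_self] at h5
    omega
  let X' := X.comap (cj e).toMonoidHom
  let eX : X' ≃* X :=
    { toFun := fun g => ⟨cj e g, g.2⟩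
      invFun := fun g => ⟨(cj e).symm g, by
        change cj e ((cj e).symm (g : V ≃ₗ[K] V)) ∈ X
        rw [MulEquiv.apply_symm_apply]
        exact g.2⟩
      left_inv := fun g => Subtype.ext ((cj e).symm_apply_apply g)
      right_inv := fun g => Subtype.ext ((cj e).apply_symm_apply g)
      map_mul' := fun g h => Subtype.ext (map_mul (cj e) (g : _ ≃ₗ[K] _) (h : _ ≃ₗ[K] _)) }
  have heX : ∀ (x : X') v, (eX x : V ≃ₗ[K] V) (e v) =
      e ((x : (K × WW B o o' × K) ≃ₗ[K] (K × WW B o o' × K)) v) := by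
    intro x v
    change cj e (x : (K × WW B o o' × K) ≃ₗ[K] (K × WW B o o' × K)) (e v) = _
    rw [cj_apply, e.symm_apply_apply]
  have c' : Ctx p (hypo (BW B o o')) X' := by
    refine ⟨hypo_sm hBW, c.two, c.odd, fun g hg => ?_, fun g hg hd => ?_⟩
    · exact (cj_mem he).mp (c.cl.1 hg)
    · change cj e (g ^ 2) ∈ X
      rw [map_pow]
      refine c.cl.2 _ ((cj_mem he).mpr hg) ?_
      rw [← hd]
      exact LinearEquiv.det_conj g e
  have h' : PiC (π.comp eX.toMonoidHom) := by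
    refine ⟨h.surj.comp eX.surjective, fun x => ?_⟩
    change π (eX x) = 1 ↔ _
    rw [h.ker]
    constructor
    · rintro ⟨a, ha⟩
      refine ⟨a, fun v => ?_⟩
      apply e.injective
      rw [← heX, ha, map_smul]
    · rintro ⟨a, ha⟩
      refine ⟨a, fun v => ?_⟩
      obtain ⟨v, rfl⟩ := e.surjective v
      rw [heX, ha, map_smul]
  obtain ⟨h6, hder⟩ := three_classes_hyp hBW c' h' (by omega)
  refine ⟨_, h6, hder, fun α hα => ?_⟩
  obtain ⟨g, σ, κ, hg, hind⟩ := exists_ssim_hyp' hBW c' h' hK (by omega)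
    (Pt_of_St hBW c' h' (by omega) hα)
  refine ⟨(e.symm.toAddEquiv.trans g).trans e.toAddEquiv, σ, κ, ⟨fun a v => ?_, hg.ne,
    fun u v => ?_⟩, fun x z hxz => ?_⟩
  · change e (g (e.symm (a • v))) = σ a • e (g (e.symm v))
    rw [map_smul, hg.sl, map_smul]
  · change B (e (g (e.symm u))) (e (g (e.symm v))) = _
    rw [he, hg.form, ← he, e.apply_symm_apply, e.apply_symm_apply]
  · obtain ⟨x, rfl⟩ := eX.surjective x
    obtain ⟨z, rfl⟩ := eX.surjective z
    obtain ⟨k, hk⟩ := hind x z hxz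
    refine ⟨k, fun v => ?_⟩
    obtain ⟨v, rfl⟩ := e.surjective v
    change (eX z : V ≃ₗ[K] V) (e (g (e.symm (e v)))) = k • e (g (e.symm ((eX x : V ≃ₗ[K] V) (e v))))
    rw [heX, heX, e.symm_apply_apply, e.symm_apply_apply, hk, map_smul]

end Transport

section Der

variable {K V : Type*} [Field K] [Finite K] [AddCommGroup V] [Module K V] [Finite V]
  {B : BilinForm K V} {X : Subgroup (V ≃ₗ[K] V)} {T : Type*} [Group T] {π : X →* T}

open scoped commutatorElement in
/-- **The outer automorphism group is solvable.** -/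
theorem derived_le_O' (h : PiC π)
    (hcom : ∀ z w : V ≃ₗ[K] V, z ∈ SpG B → w ∈ SpG B → LinearEquiv.det z = 1 →
      LinearEquiv.det w = 1 → z * w * z⁻¹ * w⁻¹ ∈ X)
    {A₀ : Subgroup (MulAut T)} (hA : derivedSeries (MulAut T) 2 ≤ A₀)
    (H : ∀ α ∈ A₀, ∃ (g : V ≃+ V) (σ : K ≃+* K) (κ : K), SSim B g σ κ ∧ IndY π α g) :
    derivedSeries (MulAut T) 5 ≤ (MulAut.conj : T →* MulAut T).range := by
  haveI : Finite (V ≃ₗ[K] V) := finite_gl
  have d1 : derivedSeries (MulAut T) 3 ≤ LinO B π := by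
    rw [derivedSeries_succ, commutator_le]
    intro α hα β hβ
    obtain ⟨g, σ, κ, hg, h1⟩ := H α (hA hα)
    obtain ⟨g', τ, μ, hh, h2⟩ := H β (hA hβ)
    have h3 := (hg.mul (hh.mul (hg.inv.mul hh.inv)))
    have h4 := h1.mul (h2.mul (h1.inv.mul h2.inv))
    have h5 : (((τ.symm.trans σ.symm).trans τ).trans σ) = RingEquiv.refl K := by
      ext a
      change σ (τ (σ.symm (τ.symm a))) = a
      rw [ringEquiv_comm τ σ.symm, σ.apply_symm_apply, τ.apply_symm_apply]
    rw [h5] at h3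
    have h6 : ⁅α, β⁆ = α * (β * (α⁻¹ * β⁻¹)) := by
      rw [commutatorElement_def]
      group
    rw [h6]
    obtain ⟨z, hz, hzi⟩ := exists_linear h3 h4
    refine ⟨z, _, h3.ne, fun u v => ?_, hzi⟩
    rw [hz, hz]
    exact h3.form u v
  have d2 : derivedSeries (MulAut T) 4 ≤ SoO B π := by
    rw [derivedSeries_succ, commutator_le]
    intro α hα β hβ
    obtain ⟨z, κ, h1, h2, h3⟩ := d1 hα
    obtain ⟨w, μ, h4, h5, h6⟩ := d1 hβ
    rw [commutatorElement_def]
    refine ⟨z * w * z⁻¹ * w⁻¹, fun u v => ?_, ?_, ((h3.mul h6).mul h3.inv).mul h6.inv⟩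
    · rw [((h2.mul h5).mul (h2.inv h1)).mul (h5.inv h4)]
      have h7 : κ * μ * κ⁻¹ * μ⁻¹ = 1 := by field_simp
      rw [h7, one_mul]
    · rw [map_mul, map_mul, map_mul, map_inv, map_inv, mul_comm (LinearEquiv.det z),
        mul_inv_cancel_right, mul_inv_cancel]
  rw [derivedSeries_succ, commutator_le]
  intro α hα β hβ
  obtain ⟨z, h1, h2, h3⟩ := d2 hα
  obtain ⟨w, h4, h5, h6⟩ := d2 hβ
  rw [commutatorElement_def]
  exact (((h3.mul h6).mul h3.inv).mul h6.inv).inner h (hcom z w h1 h4 h2 h5)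

end Der

section Cop

variable {K V : Type*} [Field K] [Finite K] [AddCommGroup V] [Module K V] [Module.Finite K V]
  {p : ℕ} [hp : Fact p.Prime]
  [CharP K p] {B : BilinForm K V} {X : Subgroup (V ≃ₗ[K] V)} (c : Ctx p B X)
  {T : Type*} [Group T] {π : X →* T} (h : PiC π)

include hp c h

/-- **Automorphisms of odd order prime to `|Aut K|` are inner.** -/
theorem inner_of_coprime_one (hd : 5 ≤ finrank K V)
    {α : MulAut T}
    (H : ∃ (g : V ≃+ V) (σ : K ≃+* K) (κ : K), SSim B g σ κ ∧ IndY π α g) {m : ℕ} (hm : Odd m) (hc : m.Coprime (Nat.card (K ≃+* K))) (hα : α ^ m = 1) :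
    α ∈ (MulAut.conj : T →* MulAut T).range := by
  obtain ⟨g, σ, κ, hg, h1⟩ := H
  have hpow : ∀ n : ℕ, ∃ (g' : V ≃+ V) (κ' : K), SSim B g' ((σ : RingAut K) ^ n) κ' ∧
      IndY π (α ^ n) g' := by
    intro n
    induction n with
    | zero =>
      refine ⟨AddEquiv.refl V, 1, ⟨fun c v => rfl, one_ne_zero, fun u v => (one_mul _).symm⟩, ?_⟩
      rw [pow_zero]
      exact indY_one
    | succ n ih =>
      obtain ⟨g', κ', h2, h3⟩ := ih
      refine ⟨g.trans g', κ' * ((σ : RingAut K) ^ n) κ, ?_, ?_⟩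
      · have h4 := h2.mul hg
        rw [pow_succ]
        exact h4
      · rw [pow_succ]
        exact h3.mul h1
  obtain ⟨g', κ', h2, h3⟩ := hpow m
  rw [hα] at h3
  have h4 : ((σ : RingAut K) ^ m) = 1 := refl_of_indY c h hd h2 h3
  haveI : Finite (RingAut K) := Finite.of_injective (fun e : K ≃+* K => (e : K → K))
    (fun e e' h => RingEquiv.ext (congrFun h))
  have h5 : (σ : RingAut K) = 1 := by
    have h6 := orderOf_dvd_of_pow_eq_one h4
    have h7 : orderOf (σ : RingAut K) ∣ Nat.card (RingAut K) := orderOf_dvd_natCard _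
    have h8 := Nat.eq_one_of_dvd_coprimes hc h6 h7
    exact orderOf_eq_one_iff.mp h8
  have h6 : σ = RingEquiv.refl K := h5
  subst h6
  obtain ⟨z, hz, hzi⟩ := exists_linear hg h1
  have hzm : Mu B z κ := by
    intro u v
    rw [hz, hz]
    exact hg.form u v
  -- the isometry
  obtain ⟨s, hs⟩ : ∃ s : V ≃ₗ[K] V, ∀ v, s v = κ⁻¹ • v :=
    ⟨LinearEquiv.smulOfNeZero K V κ⁻¹ (inv_ne_zero hg.ne), fun v => rfl⟩
  obtain ⟨w, hw⟩ : ∃ w, w = s * (z * z) := ⟨_, rfl⟩
  have hwv : ∀ v, w v = κ⁻¹ • (z * z) v := by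
    intro v
    rw [hw, LinearEquiv.mul_apply, hs]
  have hw1 : w ∈ SpG B := by
    intro u v
    rw [hwv, hwv, map_smul, map_smul, LinearMap.smul_apply, hzm.mul hzm, smul_eq_mul,
      smul_eq_mul]
    have := hg.ne
    field_simp
  have hw2 : IndL π (α * α) w := by
    intro x
    obtain ⟨y, hy, hy'⟩ := (hzi.mul hzi) x
    refine ⟨y, LinearEquiv.ext fun v => ?_, hy'⟩
    rw [LinearEquiv.mul_apply, LinearEquiv.mul_apply, hwv, hwv, map_smul]
    congr 1
    exact congrArg (fun e : V ≃ₗ[K] V => e v) hy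
  have hw3 : (w * w) ^ 2 ∈ X := c.cl.2 _ (Subgroup.mul_mem _ hw1 hw1) (by
    rw [map_mul, ← pow_two, det_sq c.sm hw1])
  have h7 : (α * α * (α * α)) ^ 2 ∈ (MulAut.conj : T →* MulAut T).range :=
    ((hw2.mul hw2).pow 2).inner h hw3
  obtain ⟨j, hj⟩ := hm
  have h8 : α = ((α * α * (α * α)) ^ 2) ^ ((j + 1) ^ 3) := by
    have h9 : (α * α * (α * α)) ^ 2 = α ^ 8 := by
      rw [← pow_two, ← pow_two, ← pow_mul, ← pow_mul]
    have h10 : 8 * (j + 1) ^ 3 = m * (m * m + 3 * m + 3) + 1 := by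
      rw [hj]
      ring
    rw [h9, ← pow_mul, h10, pow_succ, pow_mul, hα, one_pow, one_mul]
  rw [h8]
  exact Subgroup.pow_mem _ h7 _

end Cop

end Vale.Agent.P180.R2.H589.O8
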